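import Vale.Agent.P088.H952.Tr
import Vale.Agent.P088.H884.A4
import Vale.Agent.P088.H501.A12
import Vale.Agent.P088.H776.A3
import Vale.Agent.P088.H102.Neu

/-!
# P088, stage B + CF, solver half of row CONCX: complex exponential solutions of `Δ w = Q w`
-/

open MeasureTheory Set Filter
open scoped ContDiff Matrix Topology

noncomputable section

namespace Vale.Agent.P088.H833

open Vale.Agent.P088.LR Vale.Agent.P088.LR.CF

variable {n : ℕ}

/-- `e_{i₀} + iτ`. -/
def zq (i₀ : Fin n) (τ : V n) (j : Fin n) : ℂ :=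
  ((if j = i₀ then (1 : ℝ) else 0 : ℝ) : ℂ) + Complex.I * (τ j : ℂ)

/-- The symbol. -/
def syq (i₀ : Fin n) (τ : V n) (M : ℝ) (k : Ix n) : ℂ :=
  ∑ j, (2 * Real.pi * Complex.I * ((fr (th0 i₀) k j : ℝ) : ℂ)) *
    ((2 * Real.pi * Complex.I * ((fr (th0 i₀) k j : ℝ) : ℂ)) + 2 * M * zq i₀ τ j)

theorem syq_eq (i₀ : Fin n) (τ : V n) (M : ℝ) (k : Ix n) : syq i₀ τ M k =
    ((-(4 * Real.pi ^ 2 * ∑ j, fr (th0 i₀) k j ^ 2 + 4 * Real.pi * M * ∑ j, fr (th0 i₀) k j * τ j) :
      ℝ) : ℂ) + ((4 * Real.pi * M * fr (th0 i₀) k i₀ : ℝ) : ℂ) * Complex.I := by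
  have h1 : ∀ j, (2 * Real.pi * Complex.I * ((fr (th0 i₀) k j : ℝ) : ℂ)) *
      ((2 * Real.pi * Complex.I * ((fr (th0 i₀) k j : ℝ) : ℂ)) + 2 * M * zq i₀ τ j) =
      ((-(4 * Real.pi ^ 2 * fr (th0 i₀) k j ^ 2 + 4 * Real.pi * M * (fr (th0 i₀) k j * τ j)) : ℝ) : ℂ)
      + ((4 * Real.pi * M * (if j = i₀ then fr (th0 i₀) k j else 0) : ℝ) : ℂ) * Complex.I := by
    intro j
    unfold zq
    by_cases h : j = i₀
    · simp only [h, if_true]
      push_cast
      linear_combination (4 * (Real.pi : ℂ) ^ 2 * ((fr (th0 i₀) k i₀ : ℝ) : ℂ) ^ 2 +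
        4 * Real.pi * M * ((fr (th0 i₀) k i₀ : ℝ) : ℂ) * (τ i₀ : ℂ)) * Complex.I_sq
    · simp only [h, if_false]
      push_cast
      linear_combination (4 * (Real.pi : ℂ) ^ 2 * ((fr (th0 i₀) k j : ℝ) : ℂ) ^ 2 +
        4 * Real.pi * M * ((fr (th0 i₀) k j : ℝ) : ℂ) * (τ j : ℂ)) * Complex.I_sq
  unfold syq
  rw [Finset.sum_congr rfl fun j _ => h1 j, Finset.sum_add_distrib, ← Finset.sum_mul,
    ← Complex.ofReal_sum, ← Complex.ofReal_sum]
  congr 2
  · congr 1
    rw [Finset.sum_neg_distrib, Finset.sum_add_distrib, ← Finset.mul_sum, ← Finset.mul_sum]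
  · rw [← Finset.mul_sum, Finset.sum_ite_eq' Finset.univ i₀]
    simp

theorem syq_bound (i₀ : Fin n) (τ : V n) {M : ℝ} (hM : 0 < M) (k : Ix n) :
    2 * Real.pi * M ≤ ‖syq i₀ τ M k‖ := by
  have h1 := Complex.abs_im_le_norm (syq i₀ τ M k)
  rw [syq_eq] at h1 ⊢
  simp only [Complex.add_im, Complex.ofReal_im, Complex.mul_im, Complex.ofReal_re, Complex.I_im,
    Complex.I_re, mul_zero, mul_one, zero_add, add_zero] at h1
  refine le_trans ?_ h1
  have h2 : fr (th0 i₀) k i₀ = (k i₀ : ℝ) + 1 / 2 := by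
    unfold fr th0
    rw [Pi.single_eq_same]
  have h3 : (1 : ℝ) / 2 ≤ |(k i₀ : ℝ) + 1 / 2| := by
    rcases le_or_gt 0 (k i₀) with h | h
    · have : (0 : ℝ) ≤ k i₀ := by exact_mod_cast h
      rw [abs_of_nonneg (by linarith)]
      linarith
    · have : (k i₀ : ℝ) ≤ -1 := by exact_mod_cast (by omega : k i₀ ≤ -1)
      rw [abs_of_neg (by linarith)]
      linarith
  rw [h2, abs_mul, abs_of_pos (by positivity : (0 : ℝ) < 4 * Real.pi * M)]
  nlinarith [Real.pi_pos, mul_pos Real.pi_pos hM]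

theorem th0_le (i₀ j : Fin n) : |th0 i₀ j| ≤ 1 := by
  unfold th0
  by_cases h : j = i₀
  · subst h; rw [Pi.single_eq_same]; norm_num [abs_of_pos]
  · rw [Pi.single_eq_of_ne h]; norm_num

theorem Es_add' (θ : V n) {c d : Ix n → ℂ} (hc : RD c) (hd : RD d) (x : V n) :
    Es θ (fun k => c k + d k) x = Es θ c x + Es θ d x := by
  unfold Es
  rw [← Summable.tsum_add (H501.rd_summable_term hc θ x) (H501.rd_summable_term hd θ x)]
  exact tsum_congr fun k => by ring

theorem Es_smul' (θ : V n) (a : ℂ) (c : Ix n → ℂ) (x : V n) :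
    Es θ (fun k => a * c k) x = a * Es θ c x := by
  unfold Es
  rw [← tsum_mul_left]
  exact tsum_congr fun k => by ring

theorem rd_smul' {c : Ix n → ℂ} (hc : RD c) (a : ℂ) : RD (fun k => a * c k) := fun m => by
  refine ((hc m).mul_left ‖a‖).congr fun k => ?_
  rw [norm_mul]
  ring

theorem rd_add' {c d : Ix n → ℂ} (hc : RD c) (hd : RD d) : RD (fun k => c k + d k) := fun m => by
  refine Summable.of_nonneg_of_le (fun k => mul_nonneg (pow_nonneg (H501.wt_pos k).le _)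
    (norm_nonneg _)) (fun k => ?_) ((hc m).add (hd m))
  rw [← mul_add]
  exact mul_le_mul_of_nonneg_left (norm_add_le _ _) (pow_nonneg (H501.wt_pos k).le _)

theorem rd_sum' {ι : Type*} (t : Finset ι) {c : ι → Ix n → ℂ} (hc : ∀ i, RD (c i)) :
    RD (fun k => ∑ i ∈ t, c i k) := by
  classical
  induction t using Finset.induction_on with
  | empty =>
    intro m
    simp only [Finset.sum_empty, norm_zero, mul_zero]
    exact summable_zero
  | insert i t hi ih =>
    simp only [Finset.sum_insert hi]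
    exact rd_add' (hc i) ih

theorem Es_sum' {ι : Type*} (t : Finset ι) (θ : V n) {c : ι → Ix n → ℂ} (hc : ∀ i, RD (c i))
    (x : V n) : Es θ (fun k => ∑ i ∈ t, c i k) x = ∑ i ∈ t, Es θ (c i) x := by
  classical
  induction t using Finset.induction_on with
  | empty =>
    simp only [Finset.sum_empty]
    unfold Es
    simp
  | insert i t hi ih =>
    simp only [Finset.sum_insert hi]
    rw [Es_add' θ (hc i) (rd_sum' t hc), ih]

/-- First derivatives. -/
theorem pd_Es (θ : V n) {c : Ix n → ℂ} (hc : RD c) (i : Fin n) :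
    pd i (Es θ c) = Es θ (H501.dc θ c i) := by
  funext x
  exact (H501.rowA1 θ c hc).2 i x

theorem nm_nonneg' (m : ℕ) (c : Ix n → ℂ) : 0 ≤ nm m c :=
  tsum_nonneg fun k => mul_nonneg (pow_nonneg (H501.wt_pos k).le _) (norm_nonneg _)

theorem norm_Es_le (θ : V n) {c : Ix n → ℂ} (hc : RD c) (x : V n) : ‖Es θ c x‖ ≤ nm 1 c := by
  unfold Es nm
  refine (norm_tsum_le_tsum_norm (H501.rd_summable_norm_term hc θ x)).trans ?_
  refine Summable.tsum_le_tsum (fun k => ?_) (H501.rd_summable_norm_term hc θ x) (hc 1)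
  rw [norm_mul, H501.norm_ex, mul_one, pow_one]
  exact le_mul_of_one_le_left (norm_nonneg _) (H501.one_le_wt k)

theorem norm_pd_Es_le (θ : V n) {c : Ix n → ℂ} (hc : RD c) (i : Fin n) (x : V n) :
    ‖pd i (Es θ c) x‖ ≤ 2 * Real.pi * (1 + ∑ j, |θ j|) * nm 1 c := by
  rw [pd_Es θ hc i]
  have h1 := H501.rd_dc hc θ i
  unfold Es nm
  refine (norm_tsum_le_tsum_norm (H501.rd_summable_norm_term h1 θ x)).trans ?_
  rw [← tsum_mul_left]
  refine Summable.tsum_le_tsum (fun k => ?_) (H501.rd_summable_norm_term h1 θ x)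
    ((hc 1).mul_left _)
  rw [norm_mul, H501.norm_ex, mul_one, pow_one]
  exact H501.norm_dc_le θ c i k

/-- **The torus solver**, direction `e_{i₀} + iτ`. -/
theorem solver (i₀ : Fin n) (τ : V n) {Q : V n → ℂ} (hQ : ContDiff ℝ ∞ Q)
    (hQs : tsupport Q ⊆ cube n) : ∃ C : ℝ, 0 < C ∧ ∀ M : ℝ, C ≤ M → ∃ c : Ix n → ℂ, RD c ∧
      nm 1 c ≤ C / M ∧ ∀ x ∈ cube n,
        (∑ i, pd i (pd i (Es (th0 i₀) c)) x) + 2 * M * ∑ j, zq i₀ τ j * pd j (Es (th0 i₀) c) x =
          Q x * (1 + Es (th0 i₀) c x) := by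
  obtain ⟨C3, hC3, hA3⟩ := H776.rowA3 n 1
  obtain ⟨rθ, eθ, -⟩ := hA3 Q hQ hQs (th0 i₀) (th0_le i₀)
  obtain ⟨r0, e0, -⟩ := hA3 Q hQ hQs 0 (by simp)
  set θ := th0 i₀ with hθ
  set q := cf 0 Q with hq
  set qθ := cf θ Q with hqθ
  have hN0 := nm_nonneg' 1 q
  have hN1 := nm_nonneg' 1 qθ
  refine ⟨1 + nm 1 q + nm 1 qθ, by positivity, fun M hM => ?_⟩
  have hM0 : 0 < M := by linarith
  have hπM : 0 < 2 * Real.pi * M := by positivity
  have hne : ∀ k, syq i₀ τ M k ≠ 0 := fun k h => by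
    have := syq_bound i₀ τ hM0 k
    rw [h, norm_zero] at this
    linarith
  have hinv : ∀ k, ‖(syq i₀ τ M k)⁻¹‖ ≤ (2 * Real.pi * M)⁻¹ := fun k => by
    rw [norm_inv]
    exact inv_anti₀ hπM (syq_bound i₀ τ hM0 k)
  have hbd : ∀ k, ‖(syq i₀ τ M k)⁻¹ * qθ k‖ ≤ (2 * Real.pi * M)⁻¹ * ‖qθ k‖ := fun k => by
    rw [norm_mul]
    exact mul_le_mul_of_nonneg_right (hinv k) (norm_nonneg _)
  have rb : RD (fun k => (syq i₀ τ M k)⁻¹ * qθ k) := fun m => by
    refine Summable.of_nonneg_of_le (fun k => mul_nonneg (pow_nonneg (H501.wt_pos k).le _)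
      (norm_nonneg _)) (fun k => ?_) ((rθ m).mul_left (2 * Real.pi * M)⁻¹)
    calc wt k ^ m * ‖(syq i₀ τ M k)⁻¹ * qθ k‖ ≤ wt k ^ m * ((2 * Real.pi * M)⁻¹ * ‖qθ k‖) :=
          mul_le_mul_of_nonneg_left (hbd k) (pow_nonneg (H501.wt_pos k).le _)
      _ = _ := by ring
  obtain ⟨y, ry, ey, by'⟩ := H102.neu (n := n) (d := 1)
    (fun k l _ _ => (syq i₀ τ M k)⁻¹ * q (k - l)) (fun m => (2 * Real.pi * M)⁻¹ * ‖q m‖)
    (fun k _ => (syq i₀ τ M k)⁻¹ * qθ k) (fun m => by
      refine ((r0 m).mul_left (2 * Real.pi * M)⁻¹).congr fun k => ?_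
      ring) (fun k => by positivity) (fun k l i => by
      simp only [Finset.univ_unique, Finset.sum_singleton]
      rw [norm_mul]
      exact mul_le_mul_of_nonneg_right (hinv k) (norm_nonneg _)) (fun _ => rb) 1 (by
      have e1 : ∑' k, wt k ^ 1 * ((2 * Real.pi * M)⁻¹ * ‖q k‖) = (2 * Real.pi * M)⁻¹ * nm 1 q := by
        unfold nm
        rw [← tsum_mul_left]
        exact tsum_congr fun k => by ring
      rw [e1, inv_mul_le_iff₀ hπM]
      nlinarith [Real.pi_gt_three])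
  set c : Ix n → ℂ := fun k => y k 0 with hc
  have rc : RD c := ry 0
  have hce : ∀ k, syq i₀ τ M k * c k = qθ k + cv q c k := by
    intro k
    have h1 := ey k 0
    simp only [Finset.univ_unique, Finset.sum_singleton, Fin.default_eq_zero] at h1
    rw [hc]
    simp only
    rw [h1, mul_add, ← mul_assoc, mul_inv_cancel₀ (hne k), one_mul]
    congr 1
    unfold cv
    rw [← tsum_mul_left]
    refine tsum_congr fun l => ?_
    rw [← mul_assoc, ← mul_assoc, mul_inv_cancel₀ (hne k), one_mul]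
  refine ⟨c, rc, ?_, ?_⟩
  · have h1 := by' 1 le_rfl
    simp only [Finset.univ_unique, Finset.sum_singleton, Fin.default_eq_zero] at h1
    refine h1.trans ?_
    have h2 : nm 1 (fun k => (syq i₀ τ M k)⁻¹ * qθ k) ≤ (2 * Real.pi * M)⁻¹ * nm 1 qθ := by
      unfold nm
      rw [← tsum_mul_left]
      refine Summable.tsum_le_tsum (fun k => ?_) (rb 1) ((rθ 1).mul_left _)
      calc wt k ^ 1 * ‖(syq i₀ τ M k)⁻¹ * qθ k‖ ≤ wt k ^ 1 * ((2 * Real.pi * M)⁻¹ * ‖qθ k‖) :=
            mul_le_mul_of_nonneg_left (hbd k) (pow_nonneg (H501.wt_pos k).le _)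
        _ = _ := by ring
    calc 2 * nm 1 (fun k => (syq i₀ τ M k)⁻¹ * qθ k) ≤ 2 * ((2 * Real.pi * M)⁻¹ * nm 1 qθ) := by
          linarith
      _ = (nm 1 qθ / Real.pi) / M := by
          field_simp
      _ ≤ (1 + nm 1 q + nm 1 qθ) / M := by
          gcongr
          rw [div_le_iff₀ Real.pi_pos]
          nlinarith [Real.pi_gt_three]
  · intro x hx
    have rd1 : ∀ i, RD (H501.dc θ c i) := fun i => H501.rd_dc rc θ i
    have rd2 : ∀ i, RD (H501.dc θ (H501.dc θ c i) i) := fun i => H501.rd_dc (rd1 i) θ i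
    have rd3 : ∀ i, RD (fun k => H501.dc θ (H501.dc θ c i) i k + (2 * M * zq i₀ τ i) *
        H501.dc θ c i k) := fun i => rd_add' (rd2 i) (rd_smul' (rd1 i) _)
    have h1 : (∑ i, pd i (pd i (Es θ c)) x) + 2 * M * ∑ j, zq i₀ τ j * pd j (Es θ c) x =
        Es θ (fun k => ∑ i, (H501.dc θ (H501.dc θ c i) i k + (2 * M * zq i₀ τ i) *
          H501.dc θ c i k)) x := by
      rw [Es_sum' Finset.univ θ rd3, Finset.mul_sum, ← Finset.sum_add_distrib]
      refine Finset.sum_congr rfl fun i _ => ?_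
      rw [Es_add' θ (rd2 i) (rd_smul' (rd1 i) _), Es_smul', pd_Es θ rc i, pd_Es θ (rd1 i) i]
      ring
    have h2 : (fun k => ∑ i, (H501.dc θ (H501.dc θ c i) i k + (2 * M * zq i₀ τ i) *
          H501.dc θ c i k)) = fun k => qθ k + cv q c k := by
      funext k
      rw [← hce k]
      unfold syq H501.dc
      rw [Finset.sum_mul]
      refine Finset.sum_congr rfl fun i _ => ?_
      ring
    have h3 := (H501.rowA2 0 θ q c r0 rc)
    rw [h1, h2, Es_add' θ rθ h3.1, ← eθ x hx]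
    have h4 := h3.2.2.1 x
    rw [zero_add] at h4
    rw [← h4, ← e0 x hx]
    ring

/-! ## Any direction, any ball -/

/-- The affine map `x ↦ 1/2 + L⁻¹ O x`. -/
def aff (O : Matrix (Fin n) (Fin n) ℝ) (L : ℝ) (x : V n) : V n := fun i => 1 / 2 + L⁻¹ * ∑ k, O i k * x k

/-- Its inverse (`O² = 1`). -/
def iaf (O : Matrix (Fin n) (Fin n) ℝ) (L : ℝ) (x : V n) : V n := fun i => L * ∑ k, O i k * (x k - 1 / 2)

theorem aff_contDiff (O : Matrix (Fin n) (Fin n) ℝ) (L : ℝ) : ContDiff ℝ ∞ (aff O L) :=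
  contDiff_pi.2 fun i => contDiff_const.add (contDiff_const.mul
    (ContDiff.sum fun k _ => contDiff_const.mul (contDiff_apply ℝ ℝ k)))

theorem iaf_contDiff (O : Matrix (Fin n) (Fin n) ℝ) (L : ℝ) : ContDiff ℝ ∞ (iaf O L) :=
  contDiff_pi.2 fun i => contDiff_const.mul
    (ContDiff.sum fun k _ => contDiff_const.mul ((contDiff_apply ℝ ℝ k).sub contDiff_const))

theorem iaf_aff {O : Matrix (Fin n) (Fin n) ℝ} (h : CF.H952.Rf O) {L : ℝ} (hL : L ≠ 0) (x : V n) :
    iaf O L (aff O L x) = x := by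
  funext i
  unfold iaf aff
  have h1 : ∀ k, O i k * (1 / 2 + L⁻¹ * ∑ l, O k l * x l - 1 / 2) =
      L⁻¹ * ∑ l, O i k * O k l * x l := fun k => by
    rw [add_sub_cancel_left, Finset.mul_sum, Finset.mul_sum, Finset.mul_sum]
    exact Finset.sum_congr rfl fun l _ => by ring
  rw [Finset.sum_congr rfl fun k _ => h1 k, ← Finset.mul_sum, ← mul_assoc, mul_inv_cancel₀ hL,
    one_mul, Finset.sum_comm]
  have h2 : ∀ l, ∑ k, O i k * O k l * x l = (if i = l then 1 else 0) * x l := fun l => by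
    rw [← Finset.sum_mul, h.sq]
  rw [Finset.sum_congr rfl fun l _ => h2 l]
  simp

theorem pd_aff (O : Matrix (Fin n) (Fin n) ℝ) (L : ℝ) {f : V n → ℂ} (hf : ContDiff ℝ ∞ f)
    (j : Fin n) (x : V n) :
    pd j (fun y => f (aff O L y)) x = ∑ i, ((L⁻¹ * O i j : ℝ) : ℂ) * pd i f (aff O L x) := by
  have h0 : DifferentiableAt ℝ f (aff O L x) := (hf.differentiable (by simp)) _
  have h1 : DifferentiableAt ℝ (aff O L) x := ((aff_contDiff O L).differentiable (by simp)) _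
  have h2 : HasFDerivAt (fun y => f (aff O L y)) ((fderiv ℝ f (aff O L x)).comp
      (fderiv ℝ (aff O L) x)) x := HasFDerivAt.comp x h0.hasFDerivAt h1.hasFDerivAt
  have h3 : fderiv ℝ (aff O L) x (Pi.single j 1) = ∑ i, (L⁻¹ * O i j) • (Pi.single i (1 : ℝ) : V n) := by
    have h4 : ∀ i, fderiv ℝ (aff O L) x (Pi.single j 1) i = L⁻¹ * O i j := by
      intro i
      have h5 : HasFDerivAt (fun y => aff O L y i) ((ContinuousLinearMap.proj i).comp
          (fderiv ℝ (aff O L) x)) x :=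
        (ContinuousLinearMap.proj (R := ℝ) (φ := fun _ : Fin n => ℝ) i).hasFDerivAt.comp x
          h1.hasFDerivAt
      have h6 : HasFDerivAt (fun y => aff O L y i) (L⁻¹ • ∑ k, O i k •
          (ContinuousLinearMap.proj k : V n →L[ℝ] ℝ)) x := by
        refine HasFDerivAt.const_add _ ?_
        refine HasFDerivAt.const_mul ?_ _
        refine HasFDerivAt.fun_sum fun k _ => ?_
        exact (ContinuousLinearMap.hasFDerivAt (ContinuousLinearMap.proj (R := ℝ)
          (φ := fun _ : Fin n => ℝ) k)).const_mul (O i k)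
      have h7 := congrArg (fun T => T (Pi.single j (1 : ℝ))) (h5.unique h6)
      simp only [ContinuousLinearMap.comp_apply, ContinuousLinearMap.proj_apply] at h7
      rw [h7, smul_apply, sum_apply, smul_eq_mul]
      congr 1
      rw [Finset.sum_eq_single j]
      · rw [smul_apply, ContinuousLinearMap.proj_apply, Pi.single_eq_same, smul_eq_mul, mul_one]
      · intro k _ hk
        rw [smul_apply, ContinuousLinearMap.proj_apply, Pi.single_eq_of_ne hk, smul_zero]
      · intro h; exact absurd (Finset.mem_univ _) h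
    funext i
    rw [h4 i]
    simp [Finset.sum_apply, Pi.single_apply]
  unfold pd
  rw [h2.fderiv, ContinuousLinearMap.comp_apply, h3, map_sum]
  refine Finset.sum_congr rfl fun i _ => ?_
  rw [map_smul, Complex.real_smul]

theorem dv_one (f : V n → ℂ) (x : V n) : dv (fun _ => 1) f x = ∑ i, pd i (pd i f) x := by
  unfold dv
  refine Finset.sum_congr rfl fun i _ => ?_
  congr 1
  funext y
  rw [Finset.sum_eq_single i]
  · show (((1 : Matrix (Fin n) (Fin n) ℝ) i i : ℝ) : ℂ) * pd i f y = pd i f y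
    rw [Matrix.one_apply_eq, Complex.ofReal_one, one_mul]
  · intro j _ hj
    show (((1 : Matrix (Fin n) (Fin n) ℝ) i j : ℝ) : ℂ) * pd j f y = 0
    rw [Matrix.one_apply_ne (Ne.symm hj), Complex.ofReal_zero, zero_mul]
  · intro h; exact absurd (Finset.mem_univ _) h

/-- The Laplacian of `f ∘ aff`. -/
theorem lap_aff {O : Matrix (Fin n) (Fin n) ℝ} (h : CF.H952.Rf O) (L : ℝ) {f : V n → ℂ}
    (hf : ContDiff ℝ ∞ f) (x : V n) : ∑ j, pd j (pd j (fun y => f (aff O L y))) x =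
      ((L⁻¹ ^ 2 : ℝ) : ℂ) * ∑ i, pd i (pd i f) (aff O L x) := by
  have e1 : ∀ j, pd j (pd j (fun y => f (aff O L y))) x = ∑ i, ∑ l,
      ((L⁻¹ ^ 2 * (O i j * O j l) : ℝ) : ℂ) * pd l (pd i f) (aff O L x) := by
    intro j
    have e2 : pd j (fun y => f (aff O L y)) = fun y => ∑ i, ((L⁻¹ * O i j : ℝ) : ℂ) *
        (fun z => pd i f (aff O L z)) y := by
      funext y
      exact pd_aff O L hf j y
    have e3 : ∀ i, ContDiff ℝ ∞ (fun z => pd i f (aff O L z)) := fun i =>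
      (CF.H952.contDiff_pd hf i).comp (aff_contDiff O L)
    rw [e2, CF.H952.pd_sum (fun i => (e3 i).differentiable (by simp) x)]
    refine Finset.sum_congr rfl fun i _ => ?_
    rw [pd_aff O L (CF.H952.contDiff_pd hf i) j x, Finset.mul_sum]
    refine Finset.sum_congr rfl fun l _ => ?_
    rw [h.sy l j]
    push_cast
    ring
  rw [Finset.sum_congr rfl fun j _ => e1 j, Finset.sum_comm, Finset.mul_sum]
  refine Finset.sum_congr rfl fun i _ => ?_
  rw [Finset.sum_comm]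
  have e4 : ∀ l, ∑ j, ((L⁻¹ ^ 2 * (O i j * O j l) : ℝ) : ℂ) * pd l (pd i f) (aff O L x) =
      (if i = l then ((L⁻¹ ^ 2 : ℝ) : ℂ) * pd l (pd i f) (aff O L x) else 0) := by
    intro l
    rw [← Finset.sum_mul, ← Complex.ofReal_sum, ← Finset.mul_sum, h.sq]
    by_cases hil : i = l
    · simp [hil]
    · simp [hil]
  rw [Finset.sum_congr rfl fun l _ => e4 l, Finset.sum_ite_eq]
  simp

/-- **Solver half of CONCX**: `e^{N ζ·x} (1 + r_N)` solves `Δ w = Q w` on the ball of radius `R`. -/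
theorem cgoq {n : ℕ} (ν τ : V n) (hν : ∑ i, ν i ^ 2 = 1) (hντ : ∑ i, ν i * τ i = 0)
    (Q : V n → ℂ) (hQ : ContDiff ℝ ∞ Q) (R : ℝ) : ∃ r : ℕ → V n → ℂ,
      (∀ N, ContDiff ℝ ∞ (r N)) ∧ ∀ ε : ℝ, 0 < ε → ∀ᶠ N : ℕ in atTop,
        (∀ x : V n, ‖x‖ ≤ R → dv (fun _ => 1) (r N) x + 2 * (N : ℂ) *
          ∑ j, ((ν j : ℂ) + Complex.I * τ j) * pd j (r N) x = Q x * (1 + r N x)) ∧
        ∀ x : V n, ‖x‖ ≤ R → ‖r N x‖ ≤ ε ∧ ∀ a, ‖pd a (r N) x‖ ≤ ε := by
  have hn : 0 < n := by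
    rcases Nat.eq_zero_or_pos n with h | h
    · subst h
      simp at hν
    · exact h
  let i₀ : Fin n := ⟨0, hn⟩
  have hnr : nr ν = 1 := by
    unfold nr
    rw [hν, Real.sqrt_one]
  obtain ⟨O, hO, hOν⟩ := CF.H952.exists_refl i₀ ν hnr
  set L : ℝ := 4 * (n * |R| + 1) with hL
  have hL1 : 1 ≤ L := by
    have : 0 ≤ (n : ℝ) * |R| := by positivity
    linarith
  have hL0 : L ≠ 0 := by positivity
  obtain ⟨χ, hχ, hχ1, hχs, -⟩ := H884.exists_chi n
  -- the transported potential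
  set Q' : V n → ℂ := fun X => χ X * (((L ^ 2 : ℝ) : ℂ) * Q (iaf O L X)) with hQ'
  have sQ' : ContDiff ℝ ∞ Q' := hχ.mul (contDiff_const.mul (hQ.comp (iaf_contDiff O L)))
  have tQ' : tsupport Q' ⊆ cube n := (tsupport_mul_subset_left).trans hχs
  set τ' : V n := fun i => ∑ k, O i k * τ k with hτ'
  obtain ⟨C, hC, hsol⟩ := solver i₀ τ' sQ' tQ'
  -- the solutions
  have hex : ∀ N : ℕ, ∃ c : Ix n → ℂ, RD c ∧ (C ≤ N * L → nm 1 c ≤ C / (N * L) ∧ ∀ x ∈ cube n,
        (∑ i, pd i (pd i (Es (th0 i₀) c)) x) + 2 * ((N * L : ℝ) : ℂ) *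
          ∑ j, zq i₀ τ' j * pd j (Es (th0 i₀) c) x = Q' x * (1 + Es (th0 i₀) c x)) := by
    intro N
    by_cases h : C ≤ N * L
    · obtain ⟨c, hc, h1, h2⟩ := hsol (N * L) h
      exact ⟨c, hc, fun _ => ⟨h1, h2⟩⟩
    · refine ⟨fun _ => 0, fun m => ?_, fun h' => absurd h' h⟩
      simp only [norm_zero, mul_zero]
      exact summable_zero
  choose c hc hcs using hex
  have hcore : ∀ x : V n, ‖x‖ ≤ R → aff O L x ∈ core n := by
    intro x hx j
    have h1 : |∑ k, O j k * x k| ≤ n * |R| := by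
      calc |∑ k, O j k * x k| ≤ ∑ k, |O j k * x k| := Finset.abs_sum_le_sum_abs _ _
        _ ≤ ∑ _k : Fin n, |R| := by
            refine Finset.sum_le_sum fun k _ => ?_
            rw [abs_mul]
            have h2 : |x k| ≤ |R| := by
              have := norm_le_pi_norm x k
              rw [Real.norm_eq_abs] at this
              exact this.trans (hx.trans (le_abs_self R))
            calc |O j k| * |x k| ≤ 1 * |R| :=
                  mul_le_mul (CF.H952.abs_le hO j k) h2 (abs_nonneg _) zero_le_one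
              _ = |R| := one_mul _
        _ = n * |R| := by simp
    have h3 : |L⁻¹ * ∑ k, O j k * x k| ≤ 1 / 4 := by
      rw [abs_mul, abs_inv, abs_of_pos (by linarith : (0 : ℝ) < L), inv_mul_le_iff₀ (by linarith)]
      refine h1.trans ?_
      rw [hL]
      linarith
    have h4 := abs_le.1 h3
    unfold aff
    constructor <;> linarith [h4.1, h4.2]
  refine ⟨fun N x => Es (th0 i₀) (c N) (aff O L x), fun N =>
    ((H501.rowA1 (th0 i₀) (c N) (hc N)).1).comp (aff_contDiff O L), fun ε hε => ?_⟩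
  set B : ℝ := 2 * Real.pi * (1 + ∑ j, |th0 i₀ j|) with hB
  have hB0 : 0 ≤ B := by
    have : 0 ≤ ∑ j, |th0 i₀ j| := Finset.sum_nonneg fun _ _ => abs_nonneg _
    have := Real.pi_pos
    positivity
  have hlim : Tendsto (fun N : ℕ => (1 + n * B) * C / (N * L)) atTop (𝓝 0) := by
    have h1 : Tendsto (fun N : ℕ => (N : ℝ) * L) atTop atTop :=
      tendsto_natCast_atTop_atTop.atTop_mul_const (by linarith)
    exact h1.const_div_atTop _
  have h1 : ∀ᶠ N : ℕ in atTop, C ≤ N * L :=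
    (tendsto_natCast_atTop_atTop.atTop_mul_const (by linarith : (0 : ℝ) < L)).eventually_ge_atTop C
  filter_upwards [h1, hlim.eventually_lt_const hε] with N hN hNε
  obtain ⟨hnm, heq⟩ := hcs N hN
  have sEs := (H501.rowA1 (th0 i₀) (c N) (hc N)).1
  have hNL : 0 < (N : ℝ) * L := lt_of_lt_of_le hC hN
  refine ⟨fun x hx => ?_, fun x hx => ?_⟩
  · have hX := hcore x hx
    have h2 := heq (aff O L x) (H884.core_subset_cube n hX)
    have e1 : Q' (aff O L x) = ((L ^ 2 : ℝ) : ℂ) * Q x := by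
      rw [hQ']
      simp only
      rw [hχ1 _ hX, one_mul, iaf_aff hO hL0]
    rw [e1] at h2
    rw [dv_one, lap_aff hO L sEs]
    have e2 : ∑ j, ((ν j : ℂ) + Complex.I * τ j) *
        pd j (fun y => Es (th0 i₀) (c N) (aff O L y)) x =
        ((L⁻¹ : ℝ) : ℂ) * ∑ i, zq i₀ τ' i * pd i (Es (th0 i₀) (c N)) (aff O L x) := by
      have e3 : ∀ j, ((ν j : ℂ) + Complex.I * τ j) *
          pd j (fun y => Es (th0 i₀) (c N) (aff O L y)) x = ∑ i, ((L⁻¹ : ℝ) : ℂ) *
          ((((O i j * ν j : ℝ) : ℂ) + Complex.I * ((O i j * τ j : ℝ) : ℂ)) *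
            pd i (Es (th0 i₀) (c N)) (aff O L x)) := by
        intro j
        rw [pd_aff O L sEs, Finset.mul_sum]
        refine Finset.sum_congr rfl fun i _ => ?_
        push_cast
        ring
      rw [Finset.sum_congr rfl fun j _ => e3 j, Finset.sum_comm, Finset.mul_sum]
      refine Finset.sum_congr rfl fun i _ => ?_
      rw [← Finset.mul_sum, ← Finset.sum_mul, Finset.sum_add_distrib, ← Finset.mul_sum,
        ← Complex.ofReal_sum, ← Complex.ofReal_sum]
      congr 2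
      unfold zq
      congr 2
      have e4 : ∑ j, O i j * ν j = ∑ j, O i j * O j i₀ :=
        Finset.sum_congr rfl fun j _ => by rw [hOν]
      rw [e4, hO.sq]
    rw [e2]
    have hLc : (L : ℂ) ≠ 0 := by exact_mod_cast hL0
    have h3 : ((L⁻¹ ^ 2 : ℝ) : ℂ) * (((∑ i, pd i (pd i (Es (th0 i₀) (c N))) (aff O L x)) +
        2 * ((N * L : ℝ) : ℂ) * ∑ j, zq i₀ τ' j * pd j (Es (th0 i₀) (c N)) (aff O L x))) =
        ((L⁻¹ ^ 2 : ℝ) : ℂ) * (((L ^ 2 : ℝ) : ℂ) * Q x * (1 + Es (th0 i₀) (c N) (aff O L x))) := by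
      rw [h2]
    have h4 : ((L⁻¹ ^ 2 : ℝ) : ℂ) * ((L ^ 2 : ℝ) : ℂ) = 1 := by
      push_cast
      field_simp
    have h5 : ((L⁻¹ ^ 2 : ℝ) : ℂ) * ((N * L : ℝ) : ℂ) = (N : ℂ) * ((L⁻¹ : ℝ) : ℂ) := by
      push_cast
      field_simp
    linear_combination h3 + (Q x * (1 + Es (th0 i₀) (c N) (aff O L x))) * h4 -
      (2 * ∑ j, zq i₀ τ' j * pd j (Es (th0 i₀) (c N)) (aff O L x)) * h5
  · have h2 : nm 1 (c N) ≤ ε / (1 + n * B) := by
      rw [le_div_iff₀ (by positivity)]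
      calc nm 1 (c N) * (1 + n * B) ≤ C / (N * L) * (1 + n * B) :=
            mul_le_mul_of_nonneg_right hnm (by positivity)
        _ = (1 + n * B) * C / (N * L) := by ring
        _ ≤ ε := hNε.le
    have hnB : 0 ≤ (n : ℝ) * B := by positivity
    refine ⟨?_, fun a => ?_⟩
    · refine (norm_Es_le (th0 i₀) (hc N) _).trans (h2.trans ?_)
      rw [div_le_iff₀ (by positivity)]
      nlinarith
    · rw [pd_aff O L sEs]
      calc ‖∑ i, ((L⁻¹ * O i a : ℝ) : ℂ) * pd i (Es (th0 i₀) (c N)) (aff O L x)‖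
          ≤ ∑ i, ‖((L⁻¹ * O i a : ℝ) : ℂ) * pd i (Es (th0 i₀) (c N)) (aff O L x)‖ :=
            norm_sum_le _ _
        _ ≤ ∑ _i : Fin n, B * nm 1 (c N) := by
            refine Finset.sum_le_sum fun i _ => ?_
            rw [norm_mul, Complex.norm_real, Real.norm_eq_abs, abs_mul, abs_inv,
              abs_of_pos (by linarith : (0 : ℝ) < L)]
            have h3 : L⁻¹ * |O i a| ≤ 1 := by
              have h4 : L⁻¹ ≤ 1 := inv_le_one_of_one_le₀ hL1
              calc L⁻¹ * |O i a| ≤ 1 * 1 :=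
                    mul_le_mul h4 (CF.H952.abs_le hO i a) (abs_nonneg _) zero_le_one
                _ = 1 := one_mul _
            calc L⁻¹ * |O i a| * ‖pd i (Es (th0 i₀) (c N)) (aff O L x)‖
                ≤ 1 * (B * nm 1 (c N)) :=
                  mul_le_mul h3 (norm_pd_Es_le (th0 i₀) (hc N) i _) (norm_nonneg _) zero_le_one
              _ = _ := one_mul _
        _ = (n * B) * nm 1 (c N) := by
            rw [Finset.sum_const, Finset.card_univ, Fintype.card_fin, nsmul_eq_mul]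
            ring
        _ ≤ (n * B) * (ε / (1 + n * B)) := mul_le_mul_of_nonneg_left h2 hnB
        _ ≤ ε := by
            rw [mul_div_assoc', div_le_iff₀ (by positivity)]
            nlinarith

end Vale.Agent.P088.H833
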