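import Vale.Agent.P088.H757.Weak
import Vale.Agent.P088.H158.PushB
import Vale.Agent.P088.H884.Star

/-!
# P088: `Star` is transported by the push-forward
-/

open MeasureTheory Set
open scoped ContDiff Matrix

noncomputable section

namespace Vale.Agent.P088.H833

open Vale.Agent.P088.LR

variable {n : ℕ}

/-- integration by parts against a test function supported in `Ω` -/
theorem int_dv {Ω : Set (V n)} (hb : Bornology.IsBounded Ω) {s : MF n} (hs : SmM s)
    {W φ : V n → ℂ} (hW : ContDiff ℝ ∞ W) (hφ : ContDiff ℝ ∞ φ) (h0 : ∀ x ∉ Ω, φ x = 0)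
    (hi : interior (closure Ω) = Ω) :
    ∫ x, dv s W x * φ x = -∫ x in Ω, ∑ j, flx s W j x * pd j φ x := by
  have hG : ∀ j, ContDiff ℝ ∞ (fun x => flx s W j x * φ x) := fun j => (contDiff_flx hs hW j).mul hφ
  have hG0 : ∀ j, ∀ x ∉ Ω, flx s W j x * φ x = 0 := fun j x hx => by rw [h0 x hx, mul_zero]
  have hpd : ∀ j x, pd j (fun x => flx s W j x * φ x) x =
      pd j (flx s W j) x * φ x + flx s W j x * pd j φ x := by
    intro j x
    unfold pd
    rw [fderiv_fun_mul ((contDiff_flx hs hW j).differentiable (by simp) x)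
      (hφ.differentiable (by simp) x)]
    simp [smul_eq_mul]
    ring
  have hint : ∀ j, Integrable (fun x => pd j (fun x => flx s W j x * φ x) x) := fun j =>
    (H158.integral_pd_zero hb (hG j) (hG0 j) j).1
  have hzero : ∀ j, ∫ x, pd j (fun x => flx s W j x * φ x) x = 0 := fun j =>
    (H158.integral_pd_zero hb (hG j) (hG0 j) j).2
  have hsum : ∫ x, ∑ j, pd j (fun x => flx s W j x * φ x) x = 0 := by
    rw [integral_finsetSum _ fun j _ => hint j]
    exact Finset.sum_eq_zero fun j _ => hzero j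
  have hφ0 : ∀ x ∉ Ω, ∀ j, pd j φ x = 0 := by
    intro x hx j
    unfold pd
    rw [H158.fderiv_zero_off hi hφ h0 hx]
    simp
  have hcs : HasCompactSupport φ := HasCompactSupport.intro hb.isCompact_closure
    fun x hx => h0 x fun h => hx (subset_closure h)
  have hcd : Continuous fun x => dv s W x := by
    unfold dv
    refine continuous_finsetSum _ fun j _ => ?_
    exact (contDiff_pd (contDiff_flx hs hW j) j).continuous
  have hi1 : Integrable (fun x => dv s W x * φ x) :=
    (hcd.mul hφ.continuous).integrable_of_hasCompactSupport hcs.mul_left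
  have hi2 : Integrable (fun x => ∑ j, flx s W j x * pd j φ x) := by
    refine integrable_finsetSum _ fun j _ => ?_
    refine (((contDiff_flx hs hW j).continuous).mul
      (contDiff_pd hφ j).continuous).integrable_of_hasCompactSupport ?_
    exact (hcs.fderiv_apply ℝ (Pi.single j 1)).mul_left
  have hall : ∫ x in Ω, ∑ j, flx s W j x * pd j φ x = ∫ x, ∑ j, flx s W j x * pd j φ x := by
    apply setIntegral_eq_integral_of_forall_compl_eq_zero
    intro x hx
    exact Finset.sum_eq_zero fun j _ => by rw [hφ0 x hx j, mul_zero]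
  rw [hall, eq_neg_iff_add_eq_zero, ← integral_add hi1 hi2, ← hsum]
  congr 1
  funext x
  simp only [hpd, Finset.sum_add_distrib]
  congr 1
  unfold dv
  rw [Finset.sum_mul]
  rfl

/-- the weak equation implies the pointwise equation -/
theorem dv_zero {Ω : Set (V n)} (hΩ : IsOpen Ω) (hb : Bornology.IsBounded Ω)
    (hi : interior (closure Ω) = Ω) {s : MF n} (hs : SmM s)
    {W : V n → ℂ} (hW : ContDiff ℝ ∞ W)
    (h : ∀ φ : V n → ℂ, ContDiff ℝ ∞ φ → (∀ x ∉ Ω, φ x = 0) →
      ∫ x in Ω, ∑ j, flx s W j x * pd j φ x = 0) : ∀ x ∈ Ω, dv s W x = 0 := by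
  have hcd : Continuous fun x => dv s W x := by
    unfold dv
    refine continuous_finsetSum _ fun j _ => ?_
    exact (contDiff_pd (contDiff_flx hs hW j) j).continuous
  have hae : ∀ᵐ x : V n, x ∈ Ω → dv s W x = 0 := by
    refine hΩ.ae_eq_zero_of_integral_contDiff_smul_eq_zero
      (hcd.locallyIntegrable.locallyIntegrableOn _) ?_
    intro g hg hgc hgs
    have hφ : ContDiff ℝ ∞ (fun x => ((g x : ℝ) : ℂ)) := Complex.ofRealCLM.contDiff.comp hg
    have h0 : ∀ x ∉ Ω, ((g x : ℝ) : ℂ) = 0 := by
      intro x hx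
      have : x ∉ tsupport g := fun hc => hx (hgs hc)
      rw [image_eq_zero_of_notMem_tsupport this, Complex.ofReal_zero]
    have h1 := int_dv hb hs hW hφ h0 hi
    rw [h _ hφ h0, neg_zero] at h1
    rw [← h1]
    congr 1
    funext x
    rw [Complex.real_smul, mul_comm]
  have hae2 : (fun x => dv s W x) =ᵐ[volume.restrict Ω] fun _ => 0 := by
    rw [Filter.EventuallyEq, ae_restrict_iff' hΩ.measurableSet]
    exact hae
  exact Measure.eqOn_open_of_ae_eq hae2 hΩ hcd.continuousOn continuousOn_const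

theorem bl_eq_flx {Ω : Set (V n)} {s : MF n} (hsym : ∀ x, (s x).IsSymm) (W φ : V n → ℂ) :
    bl Ω s W φ = ∫ x in Ω, ∑ j, flx s W j x * pd j φ x := by
  unfold bl
  congr 1
  funext x
  rw [Finset.sum_comm]
  apply Finset.sum_congr rfl
  intro j _
  unfold flx
  rw [Finset.sum_mul]
  apply Finset.sum_congr rfl
  intro i _
  have : s x j i = s x i j := (hsym x).apply i j
  rw [this]

/-- **`Star` is transported by the push-forward.** -/
theorem star_push {Ω : Set (V n)} (hΩ : IsOpen Ω) (hb : Bornology.IsBounded Ω)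
    (hi : interior (closure Ω) = Ω) {s : MF n} (hs : SmM s) (hsym : ∀ x, (s x).IsSymm)
    {w K : V n → V n} (D : Dif Ω w K) (hS : Star Ω s) : Star Ω (psh s w K) := by
  intro U W' hU hW' hU0 hW0
  have hps : SmM (psh s w K) := H158.smM_psh D hs
  have hpy : ∀ x, (psh s w K x).IsSymm := fun x => H158.isSymm_psh D hsym x
  have h1m : SmM (fun _ : V n => (1 : Matrix (Fin n) (Fin n) ℝ)) := fun i j => contDiff_const
  have h1s : ∀ _ : V n, (1 : Matrix (Fin n) (Fin n) ℝ).IsSymm := fun _ => Matrix.isSymm_one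
  have cs : ∀ {t : MF n}, SmM t → ∀ i j, Continuous fun x => t x i j := fun h i j =>
    (h i j).continuous
  have hH : ContDiff ℝ ∞ (fun x : V n => x + w x) := contDiff_id.add D.sw
  -- `W = W' ∘ H` solves the equation for `s`
  set W : V n → ℂ := fun x => W' (x + w x) with hWdef
  have hW : ContDiff ℝ ∞ W := hW'.comp hH
  have hoff : ∀ x ∉ Ω, x + w x = x := fun x hx => by rw [D.z x hx, add_zero]
  have hWeq : ∀ x ∈ Ω, dv s W x = 0 := by
    refine dv_zero hΩ hb hi hs hW ?_
    intro φ hφ hφ0
    rw [← bl_eq_flx hsym]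
    have hφK : ContDiff ℝ ∞ (fun y => φ (K y)) := hφ.comp D.sK
    have h1 := H158.bl_push D hΩ s (hW'.differentiable (by simp)) (hφK.differentiable (by simp))
    have h2 : (fun x => φ (K (x + w x))) = φ := by
      funext x
      rw [D.l]
    have h3 : bl Ω s W φ = bl Ω (psh s w K) W' (fun y => φ (K y)) := by
      rw [h1]
      simp only [h2]
      rfl
    rw [h3]
    refine weak Ω hΩ hb _ hps hpy W' _ hW' hφK hW0 ?_
    intro x hx
    have hx' : x ∉ Ω := H158.frontier_off D hΩ hx
    show φ (K x) = 0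
    rw [H158.K_off D hx']
    exact hφ0 x hx'
  have hUH : ContDiff ℝ ∞ (fun x => U (x + w x)) := hU.comp hH
  -- the chain of equalities
  have e1 : bl Ω (psh s w K) U W' = bl Ω s (fun x => U (x + w x)) W :=
    H158.bl_push D hΩ s (hU.differentiable (by simp)) (hW'.differentiable (by simp))
  have e2 : bl Ω s (fun x => U (x + w x)) W = bl Ω s U W := by
    have b : bl Ω s (fun y => U (y + w y) - U y) W = 0 := by
      rw [H884.bl_comm Ω hsym]
      refine weak Ω hΩ hb s hs hsym W _ hW (hUH.sub hU) hWeq fun x hx => ?_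
      rw [hoff x (H158.frontier_off D hΩ hx), sub_self]
    rw [H884.bl_sub_left hb (cs hs) hUH hU hW] at b
    exact sub_eq_zero.mp b
  have e3 : bl Ω s U W = bl Ω (fun _ => 1) U W := by
    have h := hS U W hU hW hU0 hWeq
    rw [H884.bl_sub_mat hb (cs hs) (cs h1m) hU hW] at h
    exact sub_eq_zero.mp h
  have e4 : bl Ω (fun _ => 1) U W = bl Ω (fun _ => 1) U W' := by
    have b : bl Ω (fun _ => 1) U (fun y => W y - W' y) = 0 := by
      refine weak Ω hΩ hb _ h1m h1s U _ hU (hW.sub hW') hU0 fun x hx => ?_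
      show W' (x + w x) - W' x = 0
      rw [hoff x (H158.frontier_off D hΩ hx), sub_self]
    rw [H884.bl_sub_right hb (cs h1m) hU hW hW'] at b
    exact sub_eq_zero.mp b
  rw [H884.bl_sub_mat hb (cs hps) (cs h1m) hU hW', e1, e2, e3, e4, sub_self]

end Vale.Agent.P088.H833
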