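import Vale.Agent.P088.H634.Dif
import Vale.Agent.P088.H833.StarPush

/-!
# P088, Theorem CF, row PHI: `Φ = H₁⁻¹ ∘ H₂` and the gauge identity
-/

open MeasureTheory Set
open scoped ContDiff Matrix

noncomputable section

namespace Vale.Agent.P088.H833

open Vale.Agent.P088.LR Vale.Agent.P088.H634

variable {n : ℕ}

theorem cl_comp {E : Type*} [NormedAddCommGroup E] [NormedSpace ℝ E] {k : ℕ} {δ D : ℝ}
    (hD : 1 ≤ D) {f : V n → E} {g : V n → V n} (hf : ContDiff ℝ ∞ f) (hg : ContDiff ℝ ∞ g)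
    (hcf : Cl k δ f) (hcg : ∀ i, 1 ≤ i → i ≤ k → ∀ x, ‖iteratedFDeriv ℝ i g x‖ ≤ D ^ i) :
    Cl k ((k.factorial : ℝ) * D ^ k * δ) (fun x => f (g x)) := by
  intro l hl x
  have hδ0 : 0 ≤ δ := (norm_nonneg _).trans (hcf 0 (Nat.zero_le _) x)
  have := norm_iteratedFDeriv_comp_le (g := f) (f := g) (N := ∞) hf hg
    (n := l) (by exact_mod_cast le_top) x (C := δ) (D := D) (fun j hj => hcf j (by omega) _)
    (fun j hj1 hj2 => hcg j hj1 (by omega) x)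
  refine this.trans ?_
  calc (l.factorial : ℝ) * δ * D ^ l ≤ (k.factorial : ℝ) * δ * D ^ k := by
        have h2 : (l.factorial : ℝ) ≤ k.factorial := by
          exact_mod_cast Nat.factorial_le hl
        have h3 : D ^ l ≤ D ^ k := pow_le_pow_right₀ hD hl
        gcongr
    _ = (k.factorial : ℝ) * D ^ k * δ := by ring

theorem cl_sub {E : Type*} [NormedAddCommGroup E] [NormedSpace ℝ E] {k : ℕ} {a b : ℝ}
    {f g : V n → E} (hf : ContDiff ℝ ∞ f) (hg : ContDiff ℝ ∞ g)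
    (h1 : Cl k a f) (h2 : Cl k b g) : Cl k (a + b) (fun x => f x - g x) := by
  intro l hl x
  have e : iteratedFDeriv ℝ l (fun x => f x - g x) x =
      iteratedFDeriv ℝ l f x - iteratedFDeriv ℝ l g x :=
    iteratedFDeriv_sub_apply ((hf.of_le (by exact_mod_cast le_top)).contDiffAt)
      ((hg.of_le (by exact_mod_cast le_top)).contDiffAt)
  rw [e]
  exact (norm_sub_le _ _).trans (add_le_add (h1 l hl x) (h2 l hl x))

/-- derivatives of `id + w` -/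
theorem id_add_bound {k : ℕ} {w : V n → V n} (hw : ContDiff ℝ ∞ w) (hcl : Cl k 1 w)
    (i : ℕ) (hi : 1 ≤ i) (hik : i ≤ k) (x : V n) :
    ‖iteratedFDeriv ℝ i (fun x => x + w x) x‖ ≤ 2 ^ i := by
  have e : iteratedFDeriv ℝ i (fun x => x + w x) x =
      iteratedFDeriv ℝ i (fun x => x) x + iteratedFDeriv ℝ i w x :=
    iteratedFDeriv_add_apply (contDiff_id.contDiffAt)
      ((hw.of_le (by exact_mod_cast le_top)).contDiffAt)
  have h1 : ‖iteratedFDeriv ℝ i (fun x : V n => x) x‖ ≤ 1 := by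
    obtain ⟨j, rfl⟩ : ∃ j, i = j + 1 := ⟨i - 1, by omega⟩
    rw [← norm_iteratedFDeriv_fderiv]
    have h2 : fderiv ℝ (fun x : V n => x) = fun _ => ContinuousLinearMap.id ℝ (V n) := by
      funext y; exact fderiv_fun_id
    rw [h2]
    rcases Nat.eq_zero_or_pos j with rfl | hj
    · rw [norm_iteratedFDeriv_zero]
      exact ContinuousLinearMap.norm_id_le
    · rw [iteratedFDeriv_const_of_ne (by omega)]
      simp
  rw [e]
  refine (norm_add_le _ _).trans ?_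
  have h3 := hcl i hik x
  calc _ ≤ (1 : ℝ) + 1 := add_le_add h1 h3
    _ = 2 ^ 1 := by norm_num
    _ ≤ 2 ^ i := pow_le_pow_right₀ (by norm_num) hi

/-- **Row PHI.** -/
theorem phi (n k : ℕ) : ∃ C ε₀ : ℝ, 0 < C ∧ 0 < ε₀ ∧ ∀ (Ω : Set (V n)) (w₁ w₂ : V n → V n),
    ContDiff ℝ ∞ w₁ → ContDiff ℝ ∞ w₂ → (∀ x ∉ Ω, w₂ x = w₁ x) → ∀ δ, 0 ≤ δ → δ ≤ ε₀ →
    Cl (k + 2) δ w₁ → Cl (k + 2) δ w₂ → ∃ w K, Dif Ω w K ∧ Cl (k + 1) (C * δ) w ∧
      (∀ x, (x + w x) + w₁ (x + w x) = x + w₂ x) ∧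
      ∀ (f : V n → ℝ), ContDiff ℝ ∞ f → ∀ η, Cl k η f → Cl k (C * η) (fun y => f (K y)) := by
  obtain ⟨D, hD1, hD⟩ := bound_inv (k + 1)
  obtain ⟨C₀, εD, hC₀, hεD, hdif⟩ := rowDIF n k
  set C₁ : ℝ := ((k + 1).factorial : ℝ) * D ^ (k + 1) with hC₁
  have hC₁0 : 0 < C₁ := by positivity
  set C₂ : ℝ := 1 + ((k + 1).factorial : ℝ) * 2 ^ (k + 1) * C₁ with hC₂
  have hC₂0 : 0 < C₂ := by positivity
  refine ⟨C₂ + C₀, min (1 / 2) (εD / (C₂ + C₀)), by positivity, by positivity, ?_⟩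
  intro Ω w₁ w₂ hw₁ hw₂ hoff δ hδ0 hδ hcl₁ hcl₂
  have hδh : δ ≤ 1 / 2 := hδ.trans (min_le_left _ _)
  have h1 : ∀ x, ‖fderiv ℝ w₁ x‖ ≤ 1 / 2 := fun x => by
    rw [← norm_iteratedFDeriv_one]
    exact (hcl₁ 1 (by omega) x).trans hδh
  set K₁ : V n → V n := ⇑(hom hw₁ h1).symm with hK₁
  have sK₁ : ContDiff ℝ ∞ K₁ := hom_symm_smooth hw₁ h1
  have l₁ : ∀ x, K₁ (x + w₁ x) = x := fun x => by
    rw [← hom_apply hw₁ h1 x]; exact (hom hw₁ h1).symm_apply_apply x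
  have r₁ : ∀ y, K₁ y + w₁ (K₁ y) = y := fun y => by
    rw [← hom_apply hw₁ h1 ((hom hw₁ h1).symm y)]; exact (hom hw₁ h1).apply_symm_apply y
  have hclh : Cl (k + 1 + 1) (1 / 2) w₁ := fun l hl x => (hcl₁ l (by omega) x).trans hδh
  have hu : Cl (k + 1) (C₁ * δ) (fun y => w₁ (K₁ y)) :=
    cl_comp hD1 hw₁ sK₁ (fun l hl x => hcl₁ l (by omega) x)
      (fun i hi1 hi2 x => hD n w₁ K₁ hw₁ sK₁ r₁ hclh i hi1 hi2 x)
  have su : ContDiff ℝ ∞ (fun y => w₁ (K₁ y)) := hw₁.comp sK₁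
  have sH₂ : ContDiff ℝ ∞ (fun x => x + w₂ x) := contDiff_id.add hw₂
  have hcl1' : Cl (k + 1) 1 w₂ := fun l hl x => (hcl₂ l (by omega) x).trans (by linarith)
  have huH : Cl (k + 1) (((k + 1).factorial : ℝ) * 2 ^ (k + 1) * (C₁ * δ))
      (fun x => w₁ (K₁ (x + w₂ x))) :=
    cl_comp (f := fun y => w₁ (K₁ y)) (g := fun x => x + w₂ x) (by norm_num) su sH₂ hu
      (fun i hi1 hi2 x => id_add_bound hw₂ hcl1' i hi1 hi2 x)
  set w : V n → V n := fun x => w₂ x - w₁ (K₁ (x + w₂ x)) with hw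
  have hwe : ∀ x, x + w x = K₁ (x + w₂ x) := by
    intro x
    have := r₁ (x + w₂ x)
    rw [hw]
    simp only
    rw [← add_sub_assoc, sub_eq_iff_eq_add]
    exact this.symm
  have sw : ContDiff ℝ ∞ w := hw₂.sub (su.comp sH₂)
  have hwoff : ∀ x ∉ Ω, w x = 0 := by
    intro x hx
    have := hwe x
    rw [hoff x hx, l₁] at this
    simpa using this
  have hcw : Cl (k + 1) (C₂ * δ) w := by
    have h2 : Cl (k + 1) δ w₂ := fun l hl x => hcl₂ l (by omega) x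
    have h3 := cl_sub hw₂ (su.comp sH₂) h2 huH
    intro l hl x
    refine (h3 l hl x).trans (le_of_eq ?_)
    rw [hC₂]
    ring
  have hle : ∀ {a : ℝ}, 0 ≤ a → C₂ * a ≤ (C₂ + C₀) * a := fun h => by nlinarith
  have hle' : ∀ {a : ℝ}, 0 ≤ a → C₀ * a ≤ (C₂ + C₀) * a := fun h => by nlinarith
  have hbig : (C₂ + C₀) * δ ≤ εD := by
    calc (C₂ + C₀) * δ ≤ (C₂ + C₀) * (εD / (C₂ + C₀)) := by
          gcongr
          exact hδ.trans (min_le_right _ _)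
      _ = εD := by field_simp
  obtain ⟨K, hK, hcomp⟩ := hdif Ω w sw hwoff
    (fun l hl x => (hcw l hl x).trans ((hle hδ0).trans hbig))
  refine ⟨w, K, hK, fun l hl x => (hcw l hl x).trans (hle hδ0), ?_, ?_⟩
  · intro x
    rw [hwe, r₁]
  · intro f hf η hη l hl x
    have hη0 : 0 ≤ η := (norm_nonneg _).trans (hη 0 (Nat.zero_le _) x)
    exact (hcomp f hf η hη l hl x).trans (hle' hη0)

/-- **The gauge identity**: if `x_a + w₂_a` is `s₂`-harmonic and `(id + w₁) ∘ (id + w) = id + w₂`,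
then `x_a + w₁_a` is harmonic for the push-forward of `s₂` by `id + w`. -/
theorem phi_gauge {Ω : Set (V n)} (hΩ : IsOpen Ω) (hb : Bornology.IsBounded Ω)
    (hi : interior (closure Ω) = Ω) {s : MF n} (hs : SmM s) (hsym : ∀ x, (s x).IsSymm)
    {w K w₁ w₂ : V n → V n} (D : Dif Ω w K) (hw₁ : ContDiff ℝ ∞ w₁) (hw₂ : ContDiff ℝ ∞ w₂)
    (he : ∀ x, (x + w x) + w₁ (x + w x) = x + w₂ x) (a : Fin n)
    (h2 : ∀ x ∈ Ω, dv s (fun y => ((y a + w₂ y a : ℝ) : ℂ)) x = 0) :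
    ∀ x ∈ Ω, dv (psh s w K) (fun y => ((y a + w₁ y a : ℝ) : ℂ)) x = 0 := by
  have hps : SmM (psh s w K) := H158.smM_psh D hs
  have hpy : ∀ x, (psh s w K x).IsSymm := fun x => H158.isSymm_psh D hsym x
  have sm : ∀ {v : V n → V n}, ContDiff ℝ ∞ v →
      ContDiff ℝ ∞ (fun y => ((y a + v y a : ℝ) : ℂ)) := by
    intro v hv
    have h1 : ContDiff ℝ ∞ (fun y : V n => y a + v y a) :=
      (contDiff_apply ℝ ℝ a).add ((contDiff_pi.1 hv) a)
    exact Complex.ofRealCLM.contDiff.comp h1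
  refine dv_zero hΩ hb hi hps (sm hw₁) ?_
  intro φ hφ hφ0
  rw [← bl_eq_flx hpy]
  rw [H158.bl_push D hΩ s ((sm hw₁).differentiable (by simp)) (hφ.differentiable (by simp))]
  have e1 : (fun x => (((x + w x) a + w₁ (x + w x) a : ℝ) : ℂ)) =
      fun y => ((y a + w₂ y a : ℝ) : ℂ) := by
    funext x
    have := congrFun (he x) a
    simp only [Pi.add_apply] at this ⊢
    rw [this]
  have hH : ContDiff ℝ ∞ (fun x : V n => x + w x) := contDiff_id.add D.sw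
  rw [e1]
  refine weak Ω hΩ hb s hs hsym _ _ (sm hw₂) (hφ.comp hH) h2 ?_
  intro x hx
  have hx' : x ∉ Ω := H158.frontier_off D hΩ hx
  show φ (x + w x) = 0
  rw [D.z x hx', add_zero]
  exact hφ0 x hx'

end Vale.Agent.P088.H833
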