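import Vale.Agent.P088.H833.Phi
import Vale.Agent.P088.H442.C.Defs

/-!
# P088: `Φ = (id + w₁)⁻¹ ∘ (id + w₂)` is near the identity, LINEARLY in `w₂ - w₁`
-/

open MeasureTheory Set
open scoped ContDiff Matrix

noncomputable section

namespace Vale.Agent.P088.H833

open Vale.Agent.P088.LR Vale.Agent.P088.H634

variable {n : ℕ}

theorem cl_bil {E : Type} [NormedAddCommGroup E] [NormedSpace ℝ E] {k : ℕ} {a b : ℝ}
    {A : V n → (V n →L[ℝ] E)} {B : V n → (V n →L[ℝ] V n)} (hA : ContDiff ℝ ∞ A)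
    (hB : ContDiff ℝ ∞ B) (h1 : Cl k a A) (h2 : Cl k b B) :
    Cl k (2 ^ k * a * b) (fun x => (A x).comp (B x)) := by
  intro l hl x
  have ha : 0 ≤ a := (norm_nonneg _).trans (h1 0 (Nat.zero_le _) x)
  have hb : 0 ≤ b := (norm_nonneg _).trans (h2 0 (Nat.zero_le _) x)
  refine (ContinuousLinearMap.norm_iteratedFDeriv_le_of_bilinear_of_le_one
    (ContinuousLinearMap.compL ℝ (V n) (V n) E) hA hB x (n := l) (by exact_mod_cast le_top)
    (ContinuousLinearMap.norm_compL_le ℝ (V n) (V n) E)).trans ?_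
  calc ∑ i ∈ Finset.range (l + 1), (l.choose i : ℝ) * ‖iteratedFDeriv ℝ i A x‖ *
        ‖iteratedFDeriv ℝ (l - i) B x‖
      ≤ ∑ i ∈ Finset.range (l + 1), (l.choose i : ℝ) * a * b := by
        refine Finset.sum_le_sum fun i hi => ?_
        have hi' : i ≤ l := by have := Finset.mem_range.1 hi; omega
        have := h1 i (hi'.trans hl) x
        have := h2 (l - i) (by omega) x
        gcongr
    _ = 2 ^ l * a * b := by
        rw [← Finset.sum_mul, ← Finset.sum_mul]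
        have h := Nat.sum_range_choose l
        have h' : ∑ i ∈ Finset.range (l + 1), (l.choose i : ℝ) = 2 ^ l := by exact_mod_cast h
        rw [h']
    _ ≤ 2 ^ k * a * b := by
        have : (2 : ℝ) ^ l ≤ 2 ^ k := pow_le_pow_right₀ (by norm_num) hl
        gcongr

/-- Difference of two compositions. -/
theorem cl_dcomp (n k : ℕ) {D : ℝ} (hD : 1 ≤ D) : ∃ C : ℝ, 0 < C ∧
    ∀ {E : Type} [NormedAddCommGroup E] [NormedSpace ℝ E] (f : V n → E) (g₁ g₂ : V n → V n),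
    ContDiff ℝ ∞ f → ContDiff ℝ ∞ g₁ → ContDiff ℝ ∞ g₂ →
    (∀ i, 1 ≤ i → i ≤ k → ∀ x, ‖iteratedFDeriv ℝ i g₁ x‖ ≤ D ^ i) →
    (∀ i, 1 ≤ i → i ≤ k → ∀ x, ‖iteratedFDeriv ℝ i g₂ x‖ ≤ D ^ i) →
    ∀ M a : ℝ, Cl (k + 1) M f → Cl k a (fun x => g₂ x - g₁ x) →
    Cl k (C * (M * a)) (fun x => f (g₂ x) - f (g₁ x)) := by
  have base : ∀ {E : Type} [NormedAddCommGroup E] [NormedSpace ℝ E] (f : V n → E)
      (g₁ g₂ : V n → V n), ContDiff ℝ ∞ f → ∀ (m : ℕ) (M a : ℝ), Cl (m + 1) M f →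
      Cl m a (fun x => g₂ x - g₁ x) → ∀ x, ‖f (g₂ x) - f (g₁ x)‖ ≤ M * a := by
    intro E _ _ f g₁ g₂ hf m M a h1 h2 x
    have h3 : ‖f (g₂ x) - f (g₁ x)‖ ≤ M * ‖g₂ x - g₁ x‖ := by
      refine convex_univ.norm_image_sub_le_of_norm_fderiv_le (𝕜 := ℝ) (s := univ)
        (fun y _ => (hf.differentiable (by simp)).differentiableAt) (fun y _ => ?_)
        (mem_univ _) (mem_univ _)
      rw [← norm_iteratedFDeriv_one]
      exact h1 1 (by omega) y
    have hM : 0 ≤ M := (norm_nonneg _).trans (h1 0 (Nat.zero_le _) x)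
    have h4 := h2 0 (Nat.zero_le _) x
    rw [norm_iteratedFDeriv_zero] at h4
    exact h3.trans (mul_le_mul_of_nonneg_left h4 hM)
  induction k with
  | zero =>
    refine ⟨1, one_pos, ?_⟩
    intro E _ _ f g₁ g₂ hf _ _ _ _ M a h1 h2 l hl x
    obtain rfl : l = 0 := by omega
    rw [norm_iteratedFDeriv_zero, one_mul]
    exact base f g₁ g₂ hf 0 M a h1 h2 x
  | succ k ih =>
    obtain ⟨C, hC, ih⟩ := ih
    refine ⟨1 + 2 ^ k * C * D ^ (k + 1) + 2 ^ k * ((k.factorial : ℝ) * D ^ k), by positivity, ?_⟩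
    intro E _ _ f g₁ g₂ hf hg₁ hg₂ hb₁ hb₂ M a h1 h2 l hl x
    have hM : 0 ≤ M := (norm_nonneg _).trans (h1 0 (Nat.zero_le _) x)
    have ha : 0 ≤ a := (norm_nonneg _).trans (h2 0 (Nat.zero_le _) x)
    have hMa : 0 ≤ M * a := mul_nonneg hM ha
    have hD0 : 0 ≤ D := zero_le_one.trans hD
    rcases Nat.eq_zero_or_pos l with rfl | hl0
    · rw [norm_iteratedFDeriv_zero]
      refine (base f g₁ g₂ hf (k + 1) M a h1 h2 x).trans ?_
      have : 0 ≤ 2 ^ k * C * D ^ (k + 1) + 2 ^ k * ((k.factorial : ℝ) * D ^ k) := by positivity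
      nlinarith
    · obtain ⟨j, rfl⟩ : ∃ j, l = j + 1 := ⟨l - 1, by omega⟩
      rw [← norm_iteratedFDeriv_fderiv]
      have sf' : ContDiff ℝ ∞ (fderiv ℝ f) := hf.fderiv_right (by simp)
      have s1' : ContDiff ℝ ∞ (fderiv ℝ g₁) := hg₁.fderiv_right (by simp)
      have s2' : ContDiff ℝ ∞ (fderiv ℝ g₂) := hg₂.fderiv_right (by simp)
      have d0 : ∀ {F G : Type} [NormedAddCommGroup F] [NormedSpace ℝ F] [NormedAddCommGroup G]
          [NormedSpace ℝ G] {u : F → G}, ContDiff ℝ ∞ u → ∀ y, DifferentiableAt ℝ u y :=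
        fun h y => (h.differentiable (by simp)).differentiableAt
      have e : fderiv ℝ (fun x => f (g₂ x) - f (g₁ x)) = fun x =>
          (fderiv ℝ f (g₂ x) - fderiv ℝ f (g₁ x)).comp (fderiv ℝ g₂ x) +
            (fderiv ℝ f (g₁ x)).comp (fderiv ℝ g₂ x - fderiv ℝ g₁ x) := by
        funext y
        have e1 : fderiv ℝ (fun x => f (g₂ x)) y = (fderiv ℝ f (g₂ y)).comp (fderiv ℝ g₂ y) :=
          fderiv_comp (g := f) (f := g₂) y (d0 hf _) (d0 hg₂ _)
        have e2 : fderiv ℝ (fun x => f (g₁ x)) y = (fderiv ℝ f (g₁ y)).comp (fderiv ℝ g₁ y) :=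
          fderiv_comp (g := f) (f := g₁) y (d0 hf _) (d0 hg₁ _)
        have e0 : fderiv ℝ (fun x => f (g₂ x) - f (g₁ x)) y =
            fderiv ℝ (fun x => f (g₂ x)) y - fderiv ℝ (fun x => f (g₁ x)) y :=
          fderiv_fun_sub (d0 (hf.comp hg₂) y) (d0 (hf.comp hg₁) y)
        rw [e0, e1, e2]
        ext v
        simp
      have cA : Cl k (C * (M * a)) (fun x => fderiv ℝ f (g₂ x) - fderiv ℝ f (g₁ x)) :=
        ih (fderiv ℝ f) g₁ g₂ sf' hg₁ hg₂ (fun i h h' x => hb₁ i h (by omega) x)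
          (fun i h h' x => hb₂ i h (by omega) x) M a
          (fun i hi y => by
            rw [norm_iteratedFDeriv_fderiv]
            exact h1 (i + 1) (by omega) y)
          (fun i hi y => h2 i (by omega) y)
      have cB : Cl k (D ^ (k + 1)) (fderiv ℝ g₂) := fun i hi y => by
        rw [norm_iteratedFDeriv_fderiv]
        exact (hb₂ (i + 1) (by omega) (by omega) y).trans (pow_le_pow_right₀ hD (by omega))
      have cA' : Cl k ((k.factorial : ℝ) * D ^ k * M) (fun x => fderiv ℝ f (g₁ x)) :=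
        cl_comp hD sf' hg₁ (fun i hi y => by
            rw [norm_iteratedFDeriv_fderiv]
            exact h1 (i + 1) (by omega) y)
          (fun i hi1 hi2 y => hb₁ i hi1 (by omega) y)
      have cB' : Cl k a (fun x => fderiv ℝ g₂ x - fderiv ℝ g₁ x) := fun i hi y => by
        have e3 : (fun x => fderiv ℝ g₂ x - fderiv ℝ g₁ x) = fderiv ℝ (fun x => g₂ x - g₁ x) := by
          funext z
          rw [fderiv_fun_sub (d0 hg₂ z) (d0 hg₁ z)]
        rw [e3, norm_iteratedFDeriv_fderiv]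
        exact h2 (i + 1) (by omega) y
      have sA : ContDiff ℝ ∞ (fun x => fderiv ℝ f (g₂ x) - fderiv ℝ f (g₁ x)) :=
        (sf'.comp hg₂).sub (sf'.comp hg₁)
      have c1 := cl_bil sA s2' cA cB
      have c2 := cl_bil (sf'.comp hg₁) (s2'.sub s1') cA' cB'
      have sm1 : ContDiff ℝ ∞ (fun x => (fderiv ℝ f (g₂ x) - fderiv ℝ f (g₁ x)).comp
          (fderiv ℝ g₂ x)) := sA.clm_comp s2'
      have sm2 : ContDiff ℝ ∞ (fun x => (fderiv ℝ f (g₁ x)).comp
          (fderiv ℝ g₂ x - fderiv ℝ g₁ x)) := (sf'.comp hg₁).clm_comp (s2'.sub s1')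
      rw [e]
      have e4 : iteratedFDeriv ℝ j (fun x =>
          (fderiv ℝ f (g₂ x) - fderiv ℝ f (g₁ x)).comp (fderiv ℝ g₂ x) +
            (fderiv ℝ f (g₁ x)).comp (fderiv ℝ g₂ x - fderiv ℝ g₁ x)) x =
          iteratedFDeriv ℝ j (fun x =>
          (fderiv ℝ f (g₂ x) - fderiv ℝ f (g₁ x)).comp (fderiv ℝ g₂ x)) x +
          iteratedFDeriv ℝ j (fun x => (fderiv ℝ f (g₁ x)).comp
            (fderiv ℝ g₂ x - fderiv ℝ g₁ x)) x :=
        iteratedFDeriv_add_apply ((sm1.of_le (by exact_mod_cast le_top)).contDiffAt)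
          ((sm2.of_le (by exact_mod_cast le_top)).contDiffAt)
      rw [e4]
      refine (norm_add_le _ _).trans ((add_le_add (c1 j (by omega) x) (c2 j (by omega) x)).trans ?_)
      nlinarith

/-- **Row C_PH.** -/
theorem phc : CC.RowPHC := by
  intro n k
  obtain ⟨C₁, ε₁, hC₁, hε₁, hphi⟩ := phi n k
  obtain ⟨D, hD1, hD⟩ := bound_inv (k + 1)
  obtain ⟨D', hD1', hD'⟩ := bound_inv k
  obtain ⟨C₂, hC₂, hdc⟩ := cl_dcomp n k (D := 2) (by norm_num)
  set B : ℝ := ((k + 1).factorial : ℝ) * D ^ (k + 1) * 1 with hB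
  have hB0 : 0 < B := by positivity
  set B' : ℝ := (k.factorial : ℝ) * D' ^ k with hB'
  have hB0' : 0 < B' := by positivity
  set ε₀ : ℝ := min (1 / 2) (min ε₁ (1 / (2 * C₁))) with hε₀
  have hε₀0 : 0 < ε₀ := by positivity
  have hεh : ε₀ ≤ 1 / 2 := min_le_left _ _
  have hε1 : ε₀ ≤ ε₁ := (min_le_right _ _).trans (min_le_left _ _)
  have hε2 : C₁ * ε₀ ≤ 1 / 2 := by
    calc C₁ * ε₀ ≤ C₁ * (1 / (2 * C₁)) := by
          gcongr
          exact (min_le_right _ _).trans (min_le_right _ _)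
      _ = 1 / 2 := by field_simp
  refine ⟨1 + C₂ * B + B', ε₀, by nlinarith [mul_pos hC₂ hB0], hε₀0, ?_⟩
  intro Ω w₁ w₂ hw₁ hw₂ hoff hcl₁ hcl₂
  obtain ⟨w, K, hK, hcw, he, -⟩ := hphi Ω w₁ w₂ hw₁ hw₂ hoff ε₀ hε₀0.le hε1 hcl₁ hcl₂
  refine ⟨w, K, hK, ?_, he, ?_⟩
  · intro η hcl
    have hη : 0 ≤ η := (norm_nonneg _).trans (hcl 0 (Nat.zero_le _) 0)
    have h1 : ∀ x, ‖fderiv ℝ w₁ x‖ ≤ 1 / 2 := fun x => by
      rw [← norm_iteratedFDeriv_one]
      exact (hcl₁ 1 (by omega) x).trans hεh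
    set K₁ : V n → V n := ⇑(hom hw₁ h1).symm with hK₁
    have sK₁ : ContDiff ℝ ∞ K₁ := hom_symm_smooth hw₁ h1
    have l₁ : ∀ x, K₁ (x + w₁ x) = x := fun x => by
      rw [← hom_apply hw₁ h1 x]; exact (hom hw₁ h1).symm_apply_apply x
    have r₁ : ∀ y, K₁ y + w₁ (K₁ y) = y := fun y => by
      rw [← hom_apply hw₁ h1 ((hom hw₁ h1).symm y)]; exact (hom hw₁ h1).apply_symm_apply y
    have hclh : Cl (k + 1 + 1) (1 / 2) w₁ := fun l hl x => (hcl₁ l (by omega) x).trans hεh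
    have hu : Cl (k + 1) B (fun y => w₁ (K₁ y)) :=
      cl_comp hD1 hw₁ sK₁ (fun l hl x => (hcl₁ l (by omega) x).trans (by linarith))
        (fun i hi1 hi2 x => hD n w₁ K₁ hw₁ sK₁ r₁ hclh i hi1 hi2 x)
    have su : ContDiff ℝ ∞ (fun y => w₁ (K₁ y)) := hw₁.comp sK₁
    have sH₁ : ContDiff ℝ ∞ (fun x => x + w₁ x) := contDiff_id.add hw₁
    have sH₂ : ContDiff ℝ ∞ (fun x => x + w₂ x) := contDiff_id.add hw₂
    have b₁ : Cl k 1 w₁ := fun l hl x => (hcl₁ l (by omega) x).trans (by linarith)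
    have b₂ : Cl k 1 w₂ := fun l hl x => (hcl₂ l (by omega) x).trans (by linarith)
    have hd : Cl k (C₂ * (B * η)) (fun x => w₁ (K₁ (x + w₂ x)) - w₁ (K₁ (x + w₁ x))) :=
      hdc (fun y => w₁ (K₁ y)) (fun x => x + w₁ x) (fun x => x + w₂ x) su sH₁ sH₂
        (fun i h h' x => id_add_bound hw₁ b₁ i h h' x)
        (fun i h h' x => id_add_bound hw₂ b₂ i h h' x) B η hu
        (by
          have e : (fun x => (x + w₂ x) - (x + w₁ x)) = fun x => w₂ x - w₁ x := by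
            funext x; abel
          rw [e]
          exact hcl)
    have hwe : w = fun x => (w₂ x - w₁ x) -
        (w₁ (K₁ (x + w₂ x)) - w₁ (K₁ (x + w₁ x))) := by
      funext x
      have h2 : K₁ (x + w₂ x) = x + w x := by rw [← he x, l₁]
      have h3 := r₁ (x + w₂ x)
      rw [l₁]
      rw [h2] at h3 ⊢
      have h4 : w₁ (x + w x) = w₂ x - w x := by
        have : x + w x + w₁ (x + w x) = x + w₂ x := h3
        rw [add_assoc] at this
        have h5 := add_left_cancel this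
        rw [← h5]; abel
      rw [h4]
      abel
    rw [hwe]
    have h6 := cl_sub (hw₂.sub hw₁) ((su.comp sH₂).sub (su.comp sH₁)) hcl hd
    intro l hl x
    refine (h6 l hl x).trans ?_
    have : 0 ≤ B' * η := by positivity
    nlinarith
  · intro l hl f hf η hη
    have hη0 : 0 ≤ η := (norm_nonneg _).trans (hη 0 (Nat.zero_le _) 0)
    have hclw : Cl (k + 1) (1 / 2) w := fun j hj x => (hcw j hj x).trans hε2
    have h7 : Cl l ((l.factorial : ℝ) * D' ^ l * η) (fun y => f (K y)) :=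
      cl_comp hD1' hf hK.sK hη (fun i hi1 hi2 x => hD' n w K hK.sw hK.sK hK.r hclw i hi1
        (by omega) x)
    intro j hj x
    refine (h7 j hj x).trans ?_
    have h8 : (l.factorial : ℝ) ≤ k.factorial := by exact_mod_cast Nat.factorial_le hl
    have h9 : D' ^ l ≤ D' ^ k := pow_le_pow_right₀ hD1' hl
    have h10 : (l.factorial : ℝ) * D' ^ l ≤ B' := by
      rw [hB']
      gcongr
    have h11 : B' ≤ 1 + C₂ * B + B' := by nlinarith [mul_pos hC₂ hB0]
    exact mul_le_mul_of_nonneg_right (h10.trans h11) hη0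

end Vale.Agent.P088.H833
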