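import Vale.Agent.P088.H198.Defs
import Vale.Agent.P088.H72.Norm

/-!
# P088, local rigidity of the flat metric: the chain of the rows on the core cube
-/

open MeasureTheory Set
open scoped ContDiff Matrix

noncomputable section

namespace Vale.Agent.P088.H833

open Vale.Agent.P088.LR Vale.Agent.P088.LR.H72

variable {n : ℕ}

/-- Row GAUGE with `0 ≤ δ` (the form that is true for `n = 0` as well). -/
def Gauge0 : Prop := ∀ (n M : ℕ), ∃ C ε₀ : ℝ, 0 < C ∧ 0 < ε₀ ∧ ∀ (Ω : Set (V n)), IsOpen Ω →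
  interior (closure Ω) = Ω → Ω ⊆ core n → ∀ s : MF n, SmM s → (∀ x, (s x).IsSymm) →
  (∀ x ∉ Ω, s x = 1) → Star Ω s → ∀ δ ≤ ε₀, 0 ≤ δ → (∀ i j, nm M (cf 0 (ent s i j)) ≤ δ) →
  ∃ w : V n → V n, ContDiff ℝ ∞ w ∧ (∀ x ∉ Ω, w x = 0) ∧ Cl (M + 1) (C * δ) w ∧
    ∀ a x, dv s (fun y => ((y a + w y a : ℝ) : ℂ)) x = 0

theorem isClosed_core : IsClosed (core n) := by
  have : core n = ⋂ j, {x : V n | 1 / 4 ≤ x j} ∩ {x : V n | x j ≤ 3 / 4} := by
    ext x; simp [core]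
  rw [this]
  exact isClosed_iInter fun j =>
    (isClosed_le continuous_const (continuous_apply j)).inter
      (isClosed_le (continuous_apply j) continuous_const)

theorem core_subset_cube : core n ⊆ cube n := fun x hx j =>
  ⟨by linarith [(hx j).1], by linarith [(hx j).2]⟩

theorem bounded_core : Bornology.IsBounded (core n) := by
  have : core n ⊆ Set.Icc (fun _ => (1 / 4 : ℝ)) (fun _ => (3 / 4 : ℝ)) := fun x hx =>
    ⟨fun j => (hx j).1, fun j => (hx j).2⟩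
  exact (Metric.isBounded_Icc _ _).subset this

theorem smooth_ent {s : MF n} (hs : SmM s) (i j : Fin n) : ContDiff ℝ ∞ (ent s i j) := by
  have : ent s i j = fun x => Complex.ofRealCLM (s x i j - (1 : Matrix (Fin n) (Fin n) ℝ) i j) := rfl
  rw [this]
  exact Complex.ofRealCLM.contDiff.comp ((hs i j).sub contDiff_const)

theorem tsupport_ent {Ω : Set (V n)} (hΩ : Ω ⊆ core n) {s : MF n} (h1 : ∀ x ∉ Ω, s x = 1)
    (i j : Fin n) : tsupport (ent s i j) ⊆ cube n := by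
  refine (closure_minimal ?_ isClosed_core).trans core_subset_cube
  intro x hx
  by_contra hc
  apply hx
  have : x ∉ Ω := fun h => hc (hΩ h)
  simp [ent, h1 x this]

theorem cl_ent {s : MF n} (hs : SmM s) {k : ℕ} {ε : ℝ} {i j : Fin n}
    (h : Cl k ε (fun x => s x i j - (1 : Matrix (Fin n) (Fin n) ℝ) i j)) :
    Cl k ε (ent s i j) := by
  intro l hl x
  have e : ent s i j = Complex.ofRealLI ∘
    (fun x => s x i j - (1 : Matrix (Fin n) (Fin n) ℝ) i j) := rfl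
  have hc : ContDiff ℝ ∞ (fun x => s x i j - (1 : Matrix (Fin n) (Fin n) ℝ) i j) :=
    (hs i j).sub contDiff_const
  rw [e, Complex.ofRealLI.norm_iteratedFDeriv_comp_left (n := ∞) hc.contDiffAt
    (by exact_mod_cast le_top)]
  exact h l hl x

theorem smM_sg {g : MF n} (hg : SmM g) (hp : ∀ x, (g x).PosDef) : SmM (sg g) := by
  intro i j
  have hdet : ContDiff ℝ ∞ (fun x => (g x).det) := cd_det hg
  have h0 : ∀ x, (g x).det ≠ 0 := fun x => (hp x).det_pos.ne'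
  have e : (fun x => sg g x i j) = fun x => √(g x).det * (((g x).det)⁻¹ * (g x).adjugate i j) := by
    funext x
    rw [sg, Matrix.inv_def, Ring.inverse_eq_inv', Matrix.smul_apply, Matrix.smul_apply, smul_eq_mul,
      smul_eq_mul]
  rw [e]
  exact (hdet.sqrt h0).mul ((hdet.inv h0).mul (cd_adj hg i j))

theorem symm_sg {g : MF n} (hp : ∀ x, (g x).PosDef) (x : V n) : (sg g x).IsSymm := by
  have h1 : (g x)ᵀ = g x := by
    have := (hp x).isHermitian
    rwa [Matrix.IsHermitian, Matrix.conjTranspose_eq_transpose_of_trivial] at this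
  rw [Matrix.IsSymm, sg, Matrix.transpose_smul, Matrix.transpose_nonsing_inv, h1]

theorem sg_one {g : MF n} {x : V n} (h : g x = 1) : sg g x = 1 := by
  simp [sg, h]

/-- **The chain of the rows**: a metric which is `C^k`-close to the Euclidean one on the core cube,
Euclidean off `Ω`, and such that `Star` holds for it and for its push-forwards, is the pull-back of
the Euclidean metric by a diffeomorphism which is the identity off `Ω`. -/
theorem chain (hN0 : RowNORM0) (hN1 : RowNORM1) (hA3 : RowA3) (hG : Gauge0) (hD : RowDIF)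
    (hP : RowPUSH) (hC : RowCORE) (hI : RowISO) (n : ℕ) (hn : 3 ≤ n) :
    ∃ (k : ℕ) (ε : ℝ), 0 < ε ∧ ∀ (Ω : Set (V n)), IsOpen Ω → interior (closure Ω) = Ω →
      Ω ⊆ core n → ∀ g : MF n, SmM g → (∀ x, (g x).PosDef) → (∀ x ∉ Ω, g x = 1) →
      (∀ i j, Cl k ε (fun x => g x i j - (1 : Matrix (Fin n) (Fin n) ℝ) i j)) →
      Star Ω (sg g) → (∀ w K, Dif Ω w K → Star Ω (psh (sg g) w K)) →
      ∃ w K, Dif Ω w K ∧ ∀ x, g x = (jm w x)ᵀ * jm w x := by
  obtain ⟨m, εc, hεc, hcore⟩ := hC n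
  obtain ⟨C3, hC3, hA⟩ := hA3 n m
  obtain ⟨CD, εD, hCD, hεD, hdif⟩ := hD n (m + n + 1)
  obtain ⟨δ1, hδ1, hnorm1⟩ := hN1 n (m + n + 1) (εc / (C3 * CD)) (by positivity)
  obtain ⟨CG, εG, hCG, hεG, hgauge⟩ := hG n (m + n + 1)
  obtain ⟨C3', hC3', hA'⟩ := hA3 n (m + n + 1)
  obtain ⟨δ, hδ0, hδG, hδ1', hδD⟩ : ∃ δ : ℝ, 0 < δ ∧ δ ≤ εG ∧ CG * δ ≤ δ1 ∧ CG * δ ≤ εD := by
    refine ⟨min εG (min (δ1 / CG) (εD / CG)), by positivity, min_le_left _ _, ?_, ?_⟩
    · calc CG * min εG (min (δ1 / CG) (εD / CG)) ≤ CG * (δ1 / CG) :=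
          mul_le_mul_of_nonneg_left ((min_le_right _ _).trans (min_le_left _ _)) hCG.le
        _ = δ1 := by field_simp
    · calc CG * min εG (min (δ1 / CG) (εD / CG)) ≤ CG * (εD / CG) :=
          mul_le_mul_of_nonneg_left ((min_le_right _ _).trans (min_le_right _ _)) hCG.le
        _ = εD := by field_simp
  obtain ⟨δ0, hδ00, hnorm0⟩ := hN0 n (m + n + 1 + n + 1) (min (δ / C3') δ1) (by positivity)
  refine ⟨m + n + 1 + n + 1, δ0, hδ00, ?_⟩
  intro Ω hΩ hreg hΩc g hg hp h1 hcl hS1 hS2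
  have hsm := smM_sg hg hp
  have hsy : ∀ x, (sg g x).IsSymm := symm_sg hp
  have hs1 : ∀ x ∉ Ω, sg g x = 1 := fun x hx => sg_one (h1 x hx)
  have hb := hnorm0 g hg hcl
  have hnm : ∀ i j, nm (m + n + 1) (cf 0 (ent (sg g) i j)) ≤ δ := by
    intro i j
    have h := (hA' (ent (sg g) i j) (smooth_ent hsm i j) (tsupport_ent hΩc hs1 i j) 0
      (by simp)).2.2 (δ / C3') (cl_ent hsm (cl_mono (hb i j) (min_le_left _ _)))
    calc _ ≤ C3' * (δ / C3') := h
      _ = δ := by field_simp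
  obtain ⟨w, hw, hw0, hwcl, hwdv⟩ :=
    hgauge Ω hΩ hreg hΩc (sg g) hsm hsy hs1 hS1 δ hδG hδ0.le hnm
  have hwD : Cl (m + n + 1 + 1) εD w := cl_mono hwcl hδD
  have hw1 : Cl (m + n + 1 + 1) δ1 w := cl_mono hwcl hδ1'
  obtain ⟨K, hK, hcomp⟩ := hdif Ω w hw hw0 hwD
  obtain ⟨p1, p2, p3, -, p5⟩ :=
    hP Ω hΩ (bounded_core.subset hΩc) hreg (sg g) hsm hsy hs1 w K hK
  have hdiv := p5 hwdv
  have hcl1 : ∀ i j, Cl (m + n + 1) δ1
      (fun x => sg g x i j - (1 : Matrix (Fin n) (Fin n) ℝ) i j) := fun i j l hl x =>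
    (cl_mono (hb i j) (min_le_right _ _)) l (by omega) x
  have hfin := hnorm1 Ω (sg g) w K CD hsm hK hcomp hcl1 hw1
  have hnm2 : ∀ i j, nm m (cf 0 (ent (psh (sg g) w K) i j)) ≤ εc := by
    intro i j
    have h := (hA (ent (psh (sg g) w K) i j) (smooth_ent p1 i j) (tsupport_ent hΩc p3 i j) 0
      (by simp)).2.2 (CD * (εc / (C3 * CD))) (cl_ent p1 (hfin i j))
    calc _ ≤ C3 * (CD * (εc / (C3 * CD))) := h
      _ = εc := by field_simp
  have hone := hcore Ω hΩ hΩc (psh (sg g) w K) p1 p2 p3 hdiv (hS2 w K hK) hnm2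
  exact ⟨w, K, hK, hI hn Ω g hg hp w K hK hone⟩

/-- The scalar theorem on the core cube, with the Dirichlet-to-Neumann data in the form `SD`. -/
theorem scalar (hN0 : RowNORM0) (hN1 : RowNORM1) (hA3 : RowA3) (hG : Gauge0) (hD : RowDIF)
    (hP : RowPUSH) (hC : RowCORE) (hI : RowISO) (hST : RowSTAR) (n : ℕ) (hn : 3 ≤ n) :
    ∃ (k : ℕ) (ε : ℝ), 0 < ε ∧ ∀ (Ω : Set (V n)), IsOpen Ω → interior (closure Ω) = Ω →
      Ω ⊆ core n → ∀ g : MF n, SmM g → (∀ x, (g x).PosDef) → (∀ x ∉ Ω, g x = 1) →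
      (∀ i j, Cl k ε (fun x => g x i j - (1 : Matrix (Fin n) (Fin n) ℝ) i j)) →
      SD Ω (fun _ => 1) (sg g) →
      ∃ w K, Dif Ω w K ∧ ∀ x, g x = (jm w x)ᵀ * jm w x := by
  obtain ⟨k, ε, hε, h⟩ := chain hN0 hN1 hA3 hG hD hP hC hI n hn
  refine ⟨k, ε, hε, fun Ω hΩ hreg hΩc g hg hp h1 hcl hSD => ?_⟩
  have hb := bounded_core.subset hΩc
  have hs1 : ∀ x ∉ Ω, sg g x = 1 := fun x hx => sg_one (h1 x hx)
  refine h Ω hΩ hreg hΩc g hg hp h1 hcl ?_ ?_
  · exact hST Ω hΩ hb (sg g) (smM_sg hg hp) (symm_sg hp) hSD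
  · intro w K hK
    obtain ⟨p1, p2, p3, p4, -⟩ := hP Ω hΩ hb hreg (sg g) (smM_sg hg hp) (symm_sg hp) hs1 w K hK
    exact hST Ω hΩ hb _ p1 p2 (p4 hSD)

end Vale.Agent.P088.H833
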