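import Vale.Agent.P088.H833.Top
import Vale.Agent.P088.H833.StarPush

/-!
# P088: local rigidity from the orthogonality identity `Star` alone
-/

open MeasureTheory Set
open scoped ContDiff Matrix

noncomputable section

namespace Vale.Agent.P088.H833

open Vale.Agent.P088.LR

/-- The chain with the single hypothesis `Star Ω (sg g)`. -/
theorem rigid (hN0 : RowNORM0) (hN1 : RowNORM1) (hA3 : RowA3) (hG : Gauge0) (hD : RowDIF)
    (hP : RowPUSH) (hC : RowCORE) (hI : RowISO) (n : ℕ) (hn : 3 ≤ n) :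
    ∃ (k : ℕ) (ε : ℝ), 0 < ε ∧ ∀ (Ω : Set (V n)), IsOpen Ω → interior (closure Ω) = Ω →
      Ω ⊆ core n → ∀ g : MF n, SmM g → (∀ x, (g x).PosDef) → (∀ x ∉ Ω, g x = 1) →
      (∀ i j, Cl k ε (fun x => g x i j - (1 : Matrix (Fin n) (Fin n) ℝ) i j)) →
      Star Ω (sg g) →
      ∃ w K, Dif Ω w K ∧ ∀ x, g x = (jm w x)ᵀ * jm w x := by
  obtain ⟨k, ε, hε, h⟩ := chain hN0 hN1 hA3 hG hD hP hC hI n hn
  refine ⟨k, ε, hε, fun Ω hΩ hreg hΩc g hg hp h1 hcl hS => ?_⟩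
  exact h Ω hΩ hreg hΩc g hg hp h1 hcl hS fun w K D =>
    star_push hΩ (bounded_core.subset hΩc) hreg (smM_sg hg hp) (symm_sg hp) D hS

end Vale.Agent.P088.H833
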