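import Vale.Agent.P088.H833.Ser

/-!
# P088, stage 2: the formal series of all orders
-/

open MeasureTheory Set Filter
open scoped ContDiff Matrix Topology

noncomputable section

namespace Vale.Agent.P088.H833

open Vale.Agent.P088.LR Vale.Agent.P088.LR.B

variable {n : ℕ}

/-- The reciprocal of `s(∇ρ, ∇ρ)` near the boundary. -/
theorem setup {ρ : V n → ℝ} (hD : Dom ρ) : Bd (fun _ => ρ) ∧ ∃ ν : MF n → V n → ℝ, Bd ν ∧
    ∃ r > 0, ∀ᶠ s in Fl n, ∀ x, |ρ x| < r → ν s x * gr s ρ ρ x = 1 := by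
  -- the function `ρ`
  have hcore : IsCompact (core n) := by
    have : core n = Icc (fun _ => 1 / 4) (fun _ => 3 / 4) := by
      ext x
      exact ⟨fun h => ⟨fun j => (h j).1, fun j => (h j).2⟩, fun h j => ⟨h.1 j, h.2 j⟩⟩
    rw [this]
    exact isCompact_Icc
  have hcs : HasCompactSupport (fun x => ρ x - (-1)) := by
    refine HasCompactSupport.of_support_subset_isCompact hcore ?_
    intro x hx
    by_contra h
    exact hx (by simp [hD.off x h])
  have hρ : Bd (fun _ => ρ) := Bd.fix hD.sm hcs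
  -- lower bound of the gradient
  have hN1 : ContDiff ℝ ∞ (fun x => ∑ i, pd i ρ x * pd i ρ x) :=
    ContDiff.sum fun i _ => (cd_pd hD.sm i).mul (cd_pd hD.sm i)
  obtain ⟨m', hm', hm'2⟩ := hcore.exists_forall_le' (f := fun x => |ρ x| + ∑ i, pd i ρ x * pd i ρ x)
    (a := 0) (hD.sm.continuous.abs.add hN1.continuous).continuousOn (by
      intro x _
      by_contra hx
      have h1 : 0 ≤ |ρ x| := abs_nonneg _
      have h2 : 0 ≤ ∑ i, pd i ρ x * pd i ρ x := Finset.sum_nonneg fun i _ => mul_self_nonneg _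
      have h3 : |ρ x| = 0 := by linarith
      have h4 : ∑ i, pd i ρ x * pd i ρ x = 0 := by linarith
      have h5 := (Finset.sum_eq_zero_iff_of_nonneg (fun i _ => mul_self_nonneg _)).1 h4
      refine hD.nz x (abs_eq_zero.1 h3) ?_
      refine ContinuousLinearMap.ext fun v => ?_
      have hv : v = ∑ i, v i • (Pi.single i (1 : ℝ) : V n) := by
        funext j
        simp [Finset.sum_apply, Pi.single_apply]
      rw [hv, map_sum]
      refine Finset.sum_eq_zero fun i hi => ?_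
      rw [map_smul]
      have : fderiv ℝ ρ x (Pi.single i 1) = 0 := mul_self_eq_zero.1 (h5 i hi)
      rw [this, smul_zero])
  set r₀ : ℝ := min 1 (m' / 2) with hr₀
  have hr₀0 : 0 < r₀ := by positivity
  have hlow : ∀ x, |ρ x| < r₀ → m' / 2 ≤ ∑ i, pd i ρ x * pd i ρ x := by
    intro x hx
    have hx1 : x ∈ core n := by
      by_contra h
      rw [hD.off x h] at hx
      have : r₀ ≤ 1 := min_le_left _ _
      rw [abs_neg, abs_one] at hx
      linarith
    have h1 := hm'2 x hx1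
    have h2 : r₀ ≤ m' / 2 := min_le_right _ _
    linarith
  -- the reciprocal
  set ν : MF n → V n → ℝ := fun s x => rcp (m' / 4) (gr s ρ ρ x) with hν'
  have hν : Bd ν := (hρ.grr hρ).smooth (rcp_smooth (by positivity))
  have hdiff : Sml (fun s x => ∑ i, ∑ j, (s x i j - dl i j) * (pd i ρ x * pd j ρ x)) :=
    Sml.sum _ fun i => Sml.sum _ fun j => Sml.mul' (Sml.ent i j) ((hρ.pdd i).mul (hρ.pdd j))
  have hN : ∀ᶠ s in Fl n, ∀ x, |ρ x| < r₀ → ν s x * gr s ρ ρ x = 1 := by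
    filter_upwards [hdiff.sml 0 (m' / 4) (by positivity)] with s hs x hx
    refine rcp_mul (by positivity) ?_
    have h1 := hs 0 le_rfl x
    rw [norm_iteratedFDeriv_zero, Real.norm_eq_abs] at h1
    have h2 : gr s ρ ρ x = (∑ i, ∑ j, (s x i j - dl i j) * (pd i ρ x * pd j ρ x)) +
        ∑ i, pd i ρ x * pd i ρ x := by
      unfold gr
      rw [← Finset.sum_add_distrib]
      refine Finset.sum_congr rfl fun i _ => ?_
      have h3 : pd i ρ x * pd i ρ x = ∑ j, dl i j * (pd i ρ x * pd j ρ x) := by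
        rw [Finset.sum_eq_single i]
        · rw [dl, Matrix.one_apply_eq, one_mul]
        · intro j _ hj
          rw [dl, Matrix.one_apply_ne (fun h => hj h.symm), zero_mul]
        · intro h; exact absurd (Finset.mem_univ _) h
      rw [h3, ← Finset.sum_add_distrib]
      exact Finset.sum_congr rfl fun j _ => by ring
    have h4 := hlow x hx
    have h5 := (abs_le.1 h1).1
    rw [h2]
    linarith
  exact ⟨hρ, ν, hν, r₀, hr₀0, hN⟩

/-- The coefficients of the series. -/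
def coef (ρ : V n → ℝ) (ν : MF n → V n → ℝ) (a : Fin n) : ℕ → MF n → V n → ℝ
  | 0 => fun _ _ => 0
  | 1 => c0 ρ ν a
  | j + 2 => cn ν j (ser ρ ν a j).2

theorem coef_sml {ρ : V n → ℝ} {ν : MF n → V n → ℝ} {a : Fin n} (hρ : Bd (fun _ => ρ)) (hν : Bd ν)
    (j : ℕ) : Sml (coef ρ ν a j) := by
  match j with
  | 0 => exact Sml.zero
  | 1 => exact c0_sml hρ hν
  | j + 2 => exact cn_sml hν j (ser_sml hρ hν j).2

theorem coef_sum {ρ : V n → ℝ} {ν : MF n → V n → ℝ} {a : Fin n} (s : MF n) (M : ℕ) (y : V n) :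
    ∑ i ∈ Finset.range (M + 2), ρ y ^ i * coef ρ ν a i s y = ρ y * (ser ρ ν a M).1 s y := by
  induction M with
  | zero =>
    rw [Finset.sum_range_succ, Finset.sum_range_succ, Finset.sum_range_zero]
    show 0 + ρ y ^ 0 * 0 + ρ y ^ 1 * c0 ρ ν a s y = ρ y * c0 ρ ν a s y
    ring
  | succ M ih =>
    rw [Finset.sum_range_succ, ih]
    show ρ y * (ser ρ ν a M).1 s y + ρ y ^ (M + 2) * cn ν M (ser ρ ν a M).2 s y =
      ρ y * ((ser ρ ν a M).1 s y + ρ y ^ (M + 1) * cn ν M (ser ρ ν a M).2 s y)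
    ring

/-- **The formal harmonic coordinates, all orders.** -/
theorem rec_all : ∀ {n : ℕ} (ρ : V n → ℝ), Dom ρ → ∀ (k : ℕ) (δ : ℝ), 0 < δ →
    ∃ (K : ℕ) (δ' : ℝ), 0 < δ' ∧ ∀ s : MF n, SmM s → (∀ x, (s x).IsSymm) →
    (∀ i j, Cl K δ' (fun x => s x i j - dl i j)) → ∀ a : Fin n, ∃ c : ℕ → V n → ℝ,
      (∀ i, ContDiff ℝ ∞ (c i)) ∧ (∀ i ≤ k, Cl k δ (c i)) ∧ (∀ x, c 0 x = 0) ∧
      (∀ x, ρ x = 0 → ∑ i, pd i ρ x * s x i a + gr s ρ ρ x * c 1 x = pd a ρ x) ∧
      ∀ M : ℕ, ∃ r > 0, ∃ E, ContDiff ℝ ∞ E ∧ ∀ x, |ρ x| < r →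
        dr s (fun y => y a + ∑ i ∈ Finset.range (M + 2), ρ y ^ i * c i y) x = ρ x ^ M * E x := by
  intro n ρ hD k δ hδ
  obtain ⟨hρ, ν, hν, r₀, hr₀0, hN⟩ := setup hD
  have hsm : ∀ᶠ s in Fl n, ∀ a : Fin n, ∀ i : Fin (k + 1), Cl k δ (coef ρ ν a i s) := by
    rw [eventually_all]
    intro a
    rw [eventually_all]
    intro i
    exact (coef_sml hρ hν i).sml k δ hδ
  obtain ⟨K, hK⟩ := ev_iff.1 (hN.and hsm)
  refine ⟨K, 1 / ((K : ℝ) + 1), by positivity, fun s hs _ hcl a => ?_⟩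
  obtain ⟨h1, h2⟩ := hK s ⟨hs, hcl⟩
  refine ⟨fun i => coef ρ ν a i s, fun i => (coef_sml hρ hν i).sm s hs,
    fun i hi => h2 a ⟨i, by omega⟩, fun x => rfl, ?_, ?_⟩
  · intro x hx
    have h3 := h1 x (by rw [hx, abs_zero]; exact hr₀0)
    show ∑ i, pd i ρ x * s x i a + gr s ρ ρ x * c0 ρ ν a s x = pd a ρ x
    unfold c0
    have h4 : ∑ i, pd i ρ x * s x i a = ∑ i, pd i ρ x * (s x i a - dl i a) + pd a ρ x := by
      have : pd a ρ x = ∑ i, pd i ρ x * dl i a := by
        rw [Finset.sum_eq_single a]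
        · rw [dl, Matrix.one_apply_eq, mul_one]
        · intro j _ hj
          rw [dl, Matrix.one_apply_ne hj, mul_zero]
        · intro h; exact absurd (Finset.mem_univ _) h
      rw [this, ← Finset.sum_add_distrib]
      exact Finset.sum_congr rfl fun i _ => by ring
    rw [h4]
    linear_combination (-(∑ i, pd i ρ x * (s x i a - dl i a))) * h3
  · intro M
    refine ⟨r₀, hr₀0, (ser ρ ν a M).2 s, (ser_sml hρ hν M).2.sm s hs, fun x hx => ?_⟩
    have e : (fun y => y a + ∑ i ∈ Finset.range (M + 2), ρ y ^ i * coef ρ ν a i s y) =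
        fun y => y a + ρ y * (ser ρ ν a M).1 s y := by
      funext y
      rw [coef_sum]
    rw [e]
    exact ser_dr hρ hν hs (h1 x hx) M

end Vale.Agent.P088.H833
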