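import Vale.Agent.P088.H72.X.Defs2
import Vale.Agent.P088.H833.Rec

/-!
# P088, row Y_REC: formal series of all orders near an arbitrary base `sc σ`, with sources
-/

open MeasureTheory Set Filter
open scoped ContDiff Matrix Topology

noncomputable section

namespace Vale.Agent.P088.H833.RC

open Vale.Agent.P088.LR Vale.Agent.P088.LR.B Vale.Agent.P088.LR.CF Vale.Agent.P088.H833

variable {n : ℕ}

/-! ## Families over a filter -/

section fam

variable {ι : Type} {F₀ : Filter ι}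

/-- Bounded families. -/
structure Bo (F₀ : Filter ι) (F : ι → V n → ℝ) : Prop where
  sm : ∀ s, ContDiff ℝ ∞ (F s)
  bd : ∀ k, ∃ C, ∀ᶠ s in F₀, Cl k C (F s)

/-- Small families. -/
structure So (F₀ : Filter ι) (F : ι → V n → ℝ) : Prop where
  sm : ∀ s, ContDiff ℝ ∞ (F s)
  sml : ∀ k ε, 0 < ε → ∀ᶠ s in F₀, Cl k ε (F s)

theorem So.toBo {F : ι → V n → ℝ} (h : So F₀ F) : Bo F₀ F :=
  ⟨h.sm, fun k => ⟨1, h.sml k 1 one_pos⟩⟩

theorem Bo.add {F G : ι → V n → ℝ} (hF : Bo F₀ F) (hG : Bo F₀ G) :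
    Bo F₀ (fun s x => F s x + G s x) := by
  refine ⟨fun s => (hF.sm s).add (hG.sm s), fun k => ?_⟩
  obtain ⟨C, hC⟩ := hF.bd k
  obtain ⟨D, hD⟩ := hG.bd k
  refine ⟨C + D, ?_⟩
  filter_upwards [hC, hD] with s h1 h2
  exact cl_add (hF.sm s) (hG.sm s) h1 h2

theorem So.add {F G : ι → V n → ℝ} (hF : So F₀ F) (hG : So F₀ G) :
    So F₀ (fun s x => F s x + G s x) := by
  refine ⟨fun s => (hF.sm s).add (hG.sm s), fun k ε hε => ?_⟩
  filter_upwards [hF.sml k (ε / 2) (by positivity), hG.sml k (ε / 2) (by positivity)]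
    with s h1 h2
  exact cl_le (cl_add (hF.sm s) (hG.sm s) h1 h2) (by linarith)

theorem Bo.mul {F G : ι → V n → ℝ} (hF : Bo F₀ F) (hG : Bo F₀ G) :
    Bo F₀ (fun s x => F s x * G s x) := by
  refine ⟨fun s => (hF.sm s).mul (hG.sm s), fun k => ?_⟩
  obtain ⟨C, hC⟩ := hF.bd k
  obtain ⟨D, hD⟩ := hG.bd k
  refine ⟨2 ^ k * C * D, ?_⟩
  filter_upwards [hC, hD] with s h1 h2
  exact cl_mul (hF.sm s) (hG.sm s) h1 h2

theorem So.mul {F G : ι → V n → ℝ} (hF : Bo F₀ F) (hG : So F₀ G) :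
    So F₀ (fun s x => F s x * G s x) := by
  refine ⟨fun s => (hF.sm s).mul (hG.sm s), fun k ε hε => ?_⟩
  obtain ⟨C, hC⟩ := hF.bd k
  filter_upwards [hC, hG.sml k (ε / (2 ^ k * (|C| + 1))) (by positivity)] with s h1 h2
  refine cl_le (cl_mul (hF.sm s) (hG.sm s) h1 h2) ?_
  calc 2 ^ k * C * (ε / (2 ^ k * (|C| + 1))) ≤ 2 ^ k * (|C| + 1) * (ε / (2 ^ k * (|C| + 1))) := by
        have : C ≤ |C| + 1 := (le_abs_self C).trans (by linarith)
        gcongr
    _ = ε := by field_simp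

theorem So.mul' {F G : ι → V n → ℝ} (hF : So F₀ F) (hG : Bo F₀ G) :
    So F₀ (fun s x => F s x * G s x) := by
  have h : (fun s x => F s x * G s x) = fun s x => G s x * F s x := by
    funext s x; ring
  rw [h]
  exact So.mul hG hF

theorem Bo.pdd {F : ι → V n → ℝ} (hF : Bo F₀ F) (i : Fin n) : Bo F₀ (fun s => pd i (F s)) := by
  refine ⟨fun s => cd_pd (hF.sm s) i, fun k => ?_⟩
  obtain ⟨C, hC⟩ := hF.bd (k + 1)
  refine ⟨C, ?_⟩
  filter_upwards [hC] with s h1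
  exact cl_pd1 (hF.sm s) h1 i

theorem So.pdd {F : ι → V n → ℝ} (hF : So F₀ F) (i : Fin n) : So F₀ (fun s => pd i (F s)) := by
  refine ⟨fun s => cd_pd (hF.sm s) i, fun k ε hε => ?_⟩
  filter_upwards [hF.sml (k + 1) ε hε] with s h1
  exact cl_pd1 (hF.sm s) h1 i

theorem So.zero : So F₀ (fun (_ : ι) (_ : V n) => (0 : ℝ)) := by
  refine ⟨fun s => contDiff_const, fun k ε hε => ?_⟩
  refine Eventually.of_forall fun s l hl x => ?_
  have : iteratedFDeriv ℝ l (fun _ : V n => (0 : ℝ)) x = 0 := by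
    have := iteratedFDeriv_fun_zero (𝕜 := ℝ) (E := V n) (F := ℝ) (n := l)
    exact congrFun this x
  rw [this, norm_zero]
  exact hε.le

theorem So.sum {κ : Type*} (t : Finset κ) {F : κ → ι → V n → ℝ} (hF : ∀ i, So F₀ (F i)) :
    So F₀ (fun s x => ∑ i ∈ t, F i s x) := by
  classical
  induction t using Finset.induction_on with
  | empty => simpa using So.zero
  | insert i t hi ih =>
    simp only [Finset.sum_insert hi]
    exact (hF i).add ih

theorem Bo.sum {κ : Type*} (t : Finset κ) {F : κ → ι → V n → ℝ} (hF : ∀ i, Bo F₀ (F i)) :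
    Bo F₀ (fun s x => ∑ i ∈ t, F i s x) := by
  classical
  induction t using Finset.induction_on with
  | empty => simpa using So.zero.toBo
  | insert i t hi ih =>
    simp only [Finset.sum_insert hi]
    exact (hF i).add ih

theorem Bo.const (c : ℝ) : Bo F₀ (fun (_ : ι) (_ : V n) => c) := by
  refine ⟨fun s => contDiff_const, fun k => ⟨|c|, ?_⟩⟩
  refine Eventually.of_forall fun s l hl x => ?_
  rcases Nat.eq_zero_or_pos l with rfl | h
  · rw [norm_iteratedFDeriv_zero, Real.norm_eq_abs]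
  · rw [iteratedFDeriv_const_of_ne (by omega)]
    simp

/-- A fixed function, constant off a compact set. -/
theorem Bo.fix {f : V n → ℝ} {c : ℝ} (hf : ContDiff ℝ ∞ f)
    (h : HasCompactSupport (fun x => f x - c)) : Bo F₀ (fun _ => f) := by
  have h1 : Bo F₀ (fun (_ : ι) x => f x - c) := by
    have hs : ContDiff ℝ ∞ (fun x => f x - c) := hf.sub contDiff_const
    refine ⟨fun s => hs, fun k => ?_⟩
    have h2 : ∀ l : ℕ, ∃ C, ∀ x, ‖iteratedFDeriv ℝ l (fun x => f x - c) x‖ ≤ C := fun l =>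
      (hs.continuous_iteratedFDeriv (m := l) (by exact_mod_cast le_top)).bounded_above_of_compact_support
        (h.iteratedFDeriv l)
    choose C hC using h2
    refine ⟨∑ i ∈ Finset.range (k + 1), |C i|, Eventually.of_forall fun s l hl x => ?_⟩
    refine (hC l x).trans ((le_abs_self _).trans ?_)
    exact Finset.single_le_sum (f := fun i => |C i|) (fun _ _ => abs_nonneg _)
      (Finset.mem_range.2 (by omega))
  have h2 := h1.add (Bo.const c)
  simpa using h2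

theorem Bo.smooth {F : ι → V n → ℝ} (hF : Bo F₀ F) {θ : ℝ → ℝ} (hθ : ContDiff ℝ ∞ θ) :
    Bo F₀ (fun s x => θ (F s x)) := by
  refine ⟨fun s => hθ.comp (hF.sm s), fun k => ?_⟩
  obtain ⟨C, hC⟩ := hF.bd k
  have h2 : ∀ l : ℕ, ∃ M, ∀ t ∈ Icc (-C) C, ‖iteratedFDeriv ℝ l θ t‖ ≤ M := fun l =>
    isCompact_Icc.exists_bound_of_continuousOn
      ((hθ.continuous_iteratedFDeriv (m := l) (by exact_mod_cast le_top)).continuousOn)
  choose M hM using h2
  set D : ℝ := max 1 C with hD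
  set B : ℝ := ∑ i ∈ Finset.range (k + 1), |M i| with hB
  have hB0 : 0 ≤ B := Finset.sum_nonneg fun _ _ => abs_nonneg _
  refine ⟨(k.factorial : ℝ) * B * D ^ k, ?_⟩
  filter_upwards [hC] with s h1
  intro l hl x
  have hr : ∀ x, F s x ∈ Icc (-C) C := fun x => by
    have := h1 0 (Nat.zero_le _) x
    rw [norm_iteratedFDeriv_zero, Real.norm_eq_abs] at this
    exact abs_le.1 this
  have h4 := norm_iteratedFDeriv_comp_le (g := θ) (f := F s) (N := ∞) hθ (hF.sm s)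
    (n := l) (by exact_mod_cast le_top) x (C := B) (D := D) (fun i hi => ?_) (fun i hi1 hi2 => ?_)
  · refine h4.trans ?_
    have h5 : (l.factorial : ℝ) ≤ k.factorial := by exact_mod_cast Nat.factorial_le hl
    have h6 : D ^ l ≤ D ^ k := pow_le_pow_right₀ (le_max_left _ _) hl
    have h7 : 0 ≤ D := le_trans zero_le_one (le_max_left _ _)
    gcongr
  · refine (hM i _ (hr x)).trans ((le_abs_self _).trans ?_)
    exact Finset.single_le_sum (f := fun i => |M i|) (fun _ _ => abs_nonneg _)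
      (Finset.mem_range.2 (by omega))
  · refine (h1 i (hi2.trans hl) x).trans ((le_max_right 1 C).trans ?_)
    calc D = D ^ 1 := (pow_one D).symm
      _ ≤ D ^ i := pow_le_pow_right₀ (le_max_left _ _) hi1

theorem Bo.pow {F : ι → V n → ℝ} (hF : Bo F₀ F) (m : ℕ) : Bo F₀ (fun s x => F s x ^ m) := by
  induction m with
  | zero => simpa using Bo.const 1
  | succ m ih => simp only [pow_succ]; exact ih.mul hF

theorem So.drr {S : ι → MF n} (hS : ∀ i j, Bo F₀ (fun t x => S t x i j)) {F : ι → V n → ℝ}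
    (hF : So F₀ F) : So F₀ (fun t => dr (S t) (F t)) := by
  have h : (fun t => B.dr (S t) (F t)) =
      fun t x => ∑ i, pd i (fun y => ∑ j, S t y i j * pd j (F t) y) x := rfl
  rw [h]
  exact So.sum _ fun i => (So.sum _ fun j => So.mul (hS i j) (hF.pdd j)).pdd i

theorem Bo.drr {S : ι → MF n} (hS : ∀ i j, Bo F₀ (fun t x => S t x i j)) {F : ι → V n → ℝ}
    (hF : Bo F₀ F) : Bo F₀ (fun t => dr (S t) (F t)) := by
  have h : (fun t => B.dr (S t) (F t)) =
      fun t x => ∑ i, pd i (fun y => ∑ j, S t y i j * pd j (F t) y) x := rfl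
  rw [h]
  exact Bo.sum _ fun i => (Bo.sum _ fun j => (hS i j).mul (hF.pdd j)).pdd i

theorem Bo.grr {S : ι → MF n} (hS : ∀ i j, Bo F₀ (fun t x => S t x i j)) {F G : ι → V n → ℝ}
    (hF : Bo F₀ F) (hG : Bo F₀ G) : Bo F₀ (fun t => gr (S t) (F t) (G t)) := by
  have h : (fun t => B.gr (S t) (F t) (G t)) =
      fun t x => ∑ i, ∑ j, S t x i j * pd i (F t) x * pd j (G t) x := rfl
  rw [h]
  exact Bo.sum _ fun i => Bo.sum _ fun j => ((hS i j).mul (hF.pdd i)).mul (hG.pdd j)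

theorem So.grr {S : ι → MF n} (hS : ∀ i j, Bo F₀ (fun t x => S t x i j)) {F G : ι → V n → ℝ}
    (hF : Bo F₀ F) (hG : So F₀ G) : So F₀ (fun t => gr (S t) (F t) (G t)) := by
  have h : (fun t => B.gr (S t) (F t) (G t)) =
      fun t x => ∑ i, ∑ j, S t x i j * pd i (F t) x * pd j (G t) x := rfl
  rw [h]
  exact So.sum _ fun i => So.sum _ fun j => So.mul ((hS i j).mul (hF.pdd i)) (hG.pdd j)

theorem So.grr' {S : ι → MF n} (hS : ∀ i j, Bo F₀ (fun t x => S t x i j)) {F G : ι → V n → ℝ}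
    (hF : So F₀ F) (hG : Bo F₀ G) : So F₀ (fun t => gr (S t) (F t) (G t)) := by
  have h : (fun t => B.gr (S t) (F t) (G t)) =
      fun t x => ∑ i, ∑ j, S t x i j * pd i (F t) x * pd j (G t) x := rfl
  rw [h]
  exact So.sum _ fun i => So.sum _ fun j => So.mul' (So.mul (hS i j) (hF.pdd i)) (hG.pdd j)

end fam

/-! ## Data near the base -/

/-- Smooth data. -/
structure Tr (n : ℕ) where
  /-- tensor -/
  s : MF n
  /-- conormal datum -/
  f : V n → ℝ
  /-- source -/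
  g : V n → ℝ
  hs : SmM s
  hf : ContDiff ℝ ∞ f
  hg : ContDiff ℝ ∞ g

/-- Closeness of order `m`. -/
def Aq (σ : V n → ℝ) (m : ℕ) (t : Tr n) : Prop :=
  (∀ i j, Cl m (1 / ((m : ℝ) + 1)) (fun x => t.s x i j - sc σ x i j)) ∧
    Cl m (1 / ((m : ℝ) + 1)) t.f ∧ Cl m (1 / ((m : ℝ) + 1)) t.g

theorem cl_mono' {k k' : ℕ} {a b : ℝ} {f : V n → ℝ} (h : Cl k' a f) (hk : k ≤ k') (hab : a ≤ b) :
    Cl k b f := fun l hl x => (h l (hl.trans hk) x).trans hab

theorem Aq.mono {σ : V n → ℝ} {m m' : ℕ} (h : m ≤ m') {t : Tr n} (ht : Aq σ m' t) : Aq σ m t := by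
  have h1 : 1 / ((m' : ℝ) + 1) ≤ 1 / ((m : ℝ) + 1) := by
    have : (m : ℝ) ≤ m' := by exact_mod_cast h
    gcongr
  exact ⟨fun i j => cl_mono' (ht.1 i j) h h1, cl_mono' ht.2.1 h h1, cl_mono' ht.2.2 h h1⟩

/-- The filter. -/
def Fq (σ : V n → ℝ) : Filter (Tr n) where
  sets := {S | ∃ m : ℕ, ∀ t, Aq σ m t → t ∈ S}
  univ_sets := ⟨0, fun _ _ => mem_univ _⟩
  sets_of_superset := fun ⟨m, h⟩ hST => ⟨m, fun s hs => hST (h s hs)⟩
  inter_sets := fun ⟨m, h⟩ ⟨m', h'⟩ => ⟨max m m', fun s hs =>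
    ⟨h s (hs.mono (le_max_left _ _)), h' s (hs.mono (le_max_right _ _))⟩⟩

theorem evq_iff {σ : V n → ℝ} {P : Tr n → Prop} :
    (∀ᶠ t in Fq σ, P t) ↔ ∃ m : ℕ, ∀ t, Aq σ m t → P t := Iff.rfl

theorem evq_sml {σ : V n → ℝ} {F : Tr n → V n → ℝ} (hF : ∀ t, ContDiff ℝ ∞ (F t))
    (h : ∀ m t, Aq σ m t → Cl m (1 / ((m : ℝ) + 1)) (F t)) : So (Fq σ) F := by
  refine ⟨hF, fun k ε hε => ?_⟩
  obtain ⟨m, hm⟩ := exists_nat_one_div_lt hε
  refine evq_iff.2 ⟨max k m, fun t ht => ?_⟩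
  refine cl_mono' (h _ t ht) (le_max_left _ _) (le_trans ?_ hm.le)
  have : (m : ℝ) ≤ (max k m : ℕ) := by exact_mod_cast le_max_right k m
  gcongr

theorem cd_sc {σ : V n → ℝ} (hσ : ContDiff ℝ ∞ σ) (i j : Fin n) :
    ContDiff ℝ ∞ (fun x => sc σ x i j) := by
  have h : (fun x => sc σ x i j) = fun x => σ x * dl i j := by
    funext x
    simp [sc]
  rw [h]
  exact hσ.mul contDiff_const

theorem So.ent {σ : V n → ℝ} (hσ : ContDiff ℝ ∞ σ) (i j : Fin n) :
    So (Fq σ) (fun (t : Tr n) x => t.s x i j - sc σ x i j) :=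
  evq_sml (fun t => (t.hs i j).sub (cd_sc hσ i j)) fun _ _ h => h.1 i j

theorem So.ef {σ : V n → ℝ} : So (Fq σ) (fun t : Tr n => t.f) :=
  evq_sml (fun t => t.hf) fun _ _ h => h.2.1

theorem So.eg {σ : V n → ℝ} : So (Fq σ) (fun t : Tr n => t.g) :=
  evq_sml (fun t => t.hg) fun _ _ h => h.2.2

theorem core_cpt : IsCompact (core n) := by
  have : core n = Icc (fun _ => 1 / 4) (fun _ => 3 / 4) := by
    ext x
    exact ⟨fun h => ⟨fun j => (h j).1, fun j => (h j).2⟩, fun h j => ⟨h.1 j, h.2 j⟩⟩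
  rw [this]
  exact isCompact_Icc

theorem Bo.mat {σ : V n → ℝ} (hσ : ContDiff ℝ ∞ σ) (hoff : ∀ x ∉ core n, σ x = 1) (i j : Fin n) :
    Bo (Fq σ) (fun (t : Tr n) x => t.s x i j) := by
  have h1 : Bo (Fq σ) (fun (_ : Tr n) x => sc σ x i j) := by
    refine Bo.fix (c := dl i j) (cd_sc hσ i j) ?_
    refine HasCompactSupport.of_support_subset_isCompact core_cpt ?_
    intro x hx
    by_contra h
    refine hx ?_
    simp [sc, hoff x h]
  have h := (So.ent hσ i j).toBo.add h1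
  simpa using h

/-! ## The reciprocal -/

/-- The reciprocal of `s(∇ρ, ∇ρ)` near the boundary. -/
theorem setup {ρ : V n → ℝ} (hD : Dom ρ) {σ : V n → ℝ} (hσ : SmP σ)
    (hoff : ∀ x ∉ core n, σ x = 1) : Bo (Fq σ) (fun _ => ρ) ∧ ∃ ν : Tr n → V n → ℝ,
    Bo (Fq σ) ν ∧ ∃ r > 0, ∀ᶠ t in Fq σ, ∀ x, |ρ x| < r → ν t x * gr t.s ρ ρ x = 1 := by
  have hcs : HasCompactSupport (fun x => ρ x - (-1)) := by
    refine HasCompactSupport.of_support_subset_isCompact core_cpt ?_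
    intro x hx
    by_contra h
    exact hx (by simp [hD.off x h])
  have hρ : Bo (Fq σ) (fun _ => ρ) := Bo.fix hD.sm hcs
  have hgs : ∀ x, gr (sc σ) ρ ρ x = σ x * ∑ i, pd i ρ x * pd i ρ x := by
    intro x
    unfold gr
    rw [Finset.mul_sum]
    refine Finset.sum_congr rfl fun i _ => ?_
    rw [Finset.sum_eq_single i]
    · simp [sc]; ring
    · intro j _ hj
      simp [sc, Matrix.one_apply_ne (Ne.symm hj)]
    · intro h; exact absurd (Finset.mem_univ _) h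
  -- lower bound of the gradient
  have hN1 : ContDiff ℝ ∞ (fun x => σ x * ∑ i, pd i ρ x * pd i ρ x) :=
    hσ.1.mul (ContDiff.sum fun i _ => (cd_pd hD.sm i).mul (cd_pd hD.sm i))
  obtain ⟨m', hm', hm'2⟩ := core_cpt.exists_forall_le'
    (f := fun x => |ρ x| + σ x * ∑ i, pd i ρ x * pd i ρ x)
    (a := 0) (hD.sm.continuous.abs.add hN1.continuous).continuousOn (by
      intro x _
      by_contra hx
      have h1 : 0 ≤ |ρ x| := abs_nonneg _
      have h2 : 0 ≤ ∑ i, pd i ρ x * pd i ρ x := Finset.sum_nonneg fun i _ => mul_self_nonneg _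
      have h2' : 0 ≤ σ x * ∑ i, pd i ρ x * pd i ρ x := mul_nonneg (hσ.2 x).le h2
      have h3 : |ρ x| = 0 := by linarith
      have h4' : σ x * ∑ i, pd i ρ x * pd i ρ x = 0 := by linarith
      have h4 : ∑ i, pd i ρ x * pd i ρ x = 0 := (mul_eq_zero.1 h4').resolve_left (hσ.2 x).ne'
      have h5 := (Finset.sum_eq_zero_iff_of_nonneg (fun i _ => mul_self_nonneg _)).1 h4
      refine hD.nz x (abs_eq_zero.1 h3) ?_
      refine ContinuousLinearMap.ext fun v => ?_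
      have hv : v = ∑ i, v i • (Pi.single i (1 : ℝ) : V n) := by
        funext j
        simp [Finset.sum_apply, Pi.single_apply]
      rw [hv, map_sum]
      refine Finset.sum_eq_zero fun i hi => ?_
      rw [map_smul]
      have : fderiv ℝ ρ x (Pi.single i 1) = 0 := mul_self_eq_zero.1 (h5 i hi)
      rw [this, smul_zero])
  set r₀ : ℝ := min 1 (m' / 2) with hr₀
  have hr₀0 : 0 < r₀ := by positivity
  have hlow : ∀ x, |ρ x| < r₀ → m' / 2 ≤ gr (sc σ) ρ ρ x := by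
    intro x hx
    have hx1 : x ∈ core n := by
      by_contra h
      rw [hD.off x h] at hx
      have : r₀ ≤ 1 := min_le_left _ _
      rw [abs_neg, abs_one] at hx
      linarith
    have h1 := hm'2 x hx1
    have h2 : r₀ ≤ m' / 2 := min_le_right _ _
    rw [hgs]
    linarith
  -- the reciprocal
  have hS : ∀ i j, Bo (Fq σ) (fun (t : Tr n) x => t.s x i j) := Bo.mat hσ.1 hoff
  set ν : Tr n → V n → ℝ := fun t x => rcp (m' / 4) (gr t.s ρ ρ x) with hν'
  have hν : Bo (Fq σ) ν := (Bo.grr (S := fun t : Tr n => t.s) hS hρ hρ).smooth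
    (rcp_smooth (by positivity))
  have hdiff : So (Fq σ) (fun (t : Tr n) x =>
      ∑ i, ∑ j, (t.s x i j - sc σ x i j) * (pd i ρ x * pd j ρ x)) :=
    So.sum _ fun i => So.sum _ fun j => So.mul' (So.ent hσ.1 i j) ((hρ.pdd i).mul (hρ.pdd j))
  have hN : ∀ᶠ t in Fq σ, ∀ x, |ρ x| < r₀ → ν t x * gr t.s ρ ρ x = 1 := by
    filter_upwards [hdiff.sml 0 (m' / 4) (by positivity)] with t hs x hx
    refine rcp_mul (by positivity) ?_
    have h1 := hs 0 le_rfl x
    rw [norm_iteratedFDeriv_zero, Real.norm_eq_abs] at h1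
    have h2 : gr t.s ρ ρ x = (∑ i, ∑ j, (t.s x i j - sc σ x i j) * (pd i ρ x * pd j ρ x)) +
        gr (sc σ) ρ ρ x := by
      unfold gr
      rw [← Finset.sum_add_distrib]
      refine Finset.sum_congr rfl fun i _ => ?_
      rw [← Finset.sum_add_distrib]
      exact Finset.sum_congr rfl fun j _ => by ring
    have h4 := hlow x hx
    have h5 := (abs_le.1 h1).1
    rw [h2]
    linarith
  exact ⟨hρ, ν, hν, r₀, hr₀0, hN⟩

/-! ## The series -/

section series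

variable (ρ : V n → ℝ) (ν : Tr n → V n → ℝ)

/-- The first coefficient. -/
def d0 (t : Tr n) (x : V n) : ℝ := ν t x * t.f x

/-- The first error. -/
def D0 (t : Tr n) (x : V n) : ℝ := t.g x + dr t.s (fun y => ρ y * d0 ν t y) x

/-- Next coefficient. -/
def dn (j : ℕ) (E : Tr n → V n → ℝ) (t : Tr n) (x : V n) : ℝ :=
  (-(((j : ℝ) + 2) * ((j : ℝ) + 1))⁻¹) * (ν t x * E t x)

/-- Next error. -/
def Dn (j : ℕ) (c : Tr n → V n → ℝ) (t : Tr n) (x : V n) : ℝ :=
  ((j : ℝ) + 2) * (c t x * dr t.s ρ x) + (((j : ℝ) + 2) * (gr t.s ρ (c t) x + gr t.s (c t) ρ x) +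
    ρ x * dr t.s (c t) x)

/-- The errors. -/
def sq : ℕ → Tr n → V n → ℝ
  | 0 => D0 ρ ν
  | j + 1 => Dn ρ j (dn ν j (sq j))

/-- The coefficients. -/
def cq : ℕ → Tr n → V n → ℝ
  | 0 => fun _ _ => 0
  | 1 => d0 ν
  | j + 2 => dn ν j (sq ρ ν j)

variable {ρ ν} {σ : V n → ℝ}

theorem sq_sml (hS : ∀ i j, Bo (Fq σ) (fun (t : Tr n) x => t.s x i j))
    (hρ : Bo (Fq σ) (fun _ => ρ)) (hν : Bo (Fq σ) ν) (j : ℕ) : So (Fq σ) (sq ρ ν j) := by
  induction j with
  | zero =>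
    exact So.add So.eg (So.drr (S := fun t : Tr n => t.s) hS (So.mul hρ (So.mul hν So.ef)))
  | succ j ih =>
    have hc : So (Fq σ) (dn ν j (sq ρ ν j)) := So.mul (Bo.const _) (So.mul hν ih)
    exact So.add (So.mul (Bo.const _) (So.mul' hc (Bo.drr (S := fun t : Tr n => t.s) hS hρ)))
      (So.add (So.mul (Bo.const _) (So.add (So.grr (S := fun t : Tr n => t.s) hS hρ hc)
        (So.grr' (S := fun t : Tr n => t.s) hS hc hρ)))
        (So.mul hρ (So.drr (S := fun t : Tr n => t.s) hS hc)))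

theorem cq_sml (hS : ∀ i j, Bo (Fq σ) (fun (t : Tr n) x => t.s x i j))
    (hρ : Bo (Fq σ) (fun _ => ρ)) (hν : Bo (Fq σ) ν) (j : ℕ) : So (Fq σ) (cq ρ ν j) := by
  match j with
  | 0 => exact So.zero
  | 1 => exact So.mul hν So.ef
  | j + 2 => exact So.mul (Bo.const _) (So.mul hν (sq_sml hS hρ hν j))

theorem cq_sum (sρ : ContDiff ℝ ∞ ρ) (hc : ∀ j t, ContDiff ℝ ∞ (cq ρ ν j t)) {t : Tr n} {x : V n}
    (hx : ν t x * gr t.s ρ ρ x = 1) (M : ℕ) :
    t.g x + dr t.s (fun y => ∑ i ∈ Finset.range (M + 2), ρ y ^ i * cq ρ ν i t y) x =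
      ρ x ^ M * sq ρ ν M t x := by
  induction M with
  | zero =>
    have e : (fun y => ∑ i ∈ Finset.range (0 + 2), ρ y ^ i * cq ρ ν i t y) =
        fun y => ρ y * d0 ν t y := by
      funext y
      rw [Finset.sum_range_succ, Finset.sum_range_succ, Finset.sum_range_zero]
      show 0 + ρ y ^ 0 * 0 + ρ y ^ 1 * d0 ν t y = ρ y * d0 ν t y
      ring
    rw [e, pow_zero, one_mul]
    rfl
  | succ j ih =>
    have h0 : ContDiff ℝ ∞ (fun y => ∑ i ∈ Finset.range (j + 2), ρ y ^ i * cq ρ ν i t y) :=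
      ContDiff.sum fun i _ => (sρ.pow i).mul (hc i t)
    have h1 : ContDiff ℝ ∞ (cq ρ ν (j + 2) t) := hc (j + 2) t
    set c := cq ρ ν (j + 2) t with hc'
    have e1 : (fun y => ∑ i ∈ Finset.range (j + 1 + 2), ρ y ^ i * cq ρ ν i t y) =
        fun y => (∑ i ∈ Finset.range (j + 2), ρ y ^ i * cq ρ ν i t y) + ρ y ^ (j + 2) * c y := by
      funext y
      rw [show j + 1 + 2 = (j + 2) + 1 from rfl, Finset.sum_range_succ]
    have e2 : sq ρ ν (j + 1) t x = ((j : ℝ) + 2) * (c x * dr t.s ρ x) +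
        (((j : ℝ) + 2) * (gr t.s ρ c x + gr t.s c ρ x) + ρ x * dr t.s c x) := rfl
    have e3 : c x = (-(((j : ℝ) + 2) * ((j : ℝ) + 1))⁻¹) * (ν t x * sq ρ ν j t x) := rfl
    have hj : (((j : ℝ) + 2) * ((j : ℝ) + 1)) ≠ 0 := by positivity
    have e4 : ((j : ℝ) + 2) * ((j : ℝ) + 1) * gr t.s ρ ρ x * c x = - sq ρ ν j t x := by
      rw [e3]
      calc _ = - ((((j : ℝ) + 2) * ((j : ℝ) + 1)) * (((j : ℝ) + 2) * ((j : ℝ) + 1))⁻¹) *
            (ν t x * gr t.s ρ ρ x) * sq ρ ν j t x := by ring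
        _ = _ := by rw [hx, mul_inv_cancel₀ hj]; ring
    rw [e1, dr_add t.hs h0 ((sρ.pow _).mul h1), dr_mul t.hs (sρ.pow _) h1,
      dr_pow t.hs sρ, show j + 2 = (j + 1) + 1 from rfl, gr_pow sρ, gr_pow' sρ, e2]
    rw [show j + 1 + 1 = j + 2 from rfl]
    push_cast
    linear_combination ih + (ρ x ^ j) * e4

end series

/-- **Row Y_REC.** -/
theorem recC : BY.RowREC := by
  intro n ρ hD σ hσ hoff k δ hδ
  obtain ⟨hρ, ν, hν, r₀, hr₀0, hN⟩ := setup hD hσ hoff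
  have hS : ∀ i j, Bo (Fq σ) (fun (t : Tr n) x => t.s x i j) := Bo.mat hσ.1 hoff
  have hsm : ∀ᶠ t in Fq σ, ∀ i : Fin (k + 1), Cl k δ (cq ρ ν i t) := by
    rw [eventually_all]
    intro i
    exact (cq_sml hS hρ hν i).sml k δ hδ
  obtain ⟨K, hK⟩ := evq_iff.1 (hN.and hsm)
  refine ⟨K, 1 / ((K : ℝ) + 1), by positivity, fun s hs _ hcl f g hf hg hf1 hg1 => ?_⟩
  obtain ⟨h1, h2⟩ := hK ⟨s, f, g, hs, hf, hg⟩ ⟨hcl, hf1, hg1⟩
  set t : Tr n := ⟨s, f, g, hs, hf, hg⟩ with ht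
  refine ⟨fun i => cq ρ ν i t, fun i => (cq_sml hS hρ hν i).sm t,
    fun i hi => h2 ⟨i, by omega⟩, fun x => rfl, ?_, ?_, ?_⟩
  · intro h x
    show ν t x * f x = 0
    rw [h x, mul_zero]
  · intro x hx
    have h3 : ν t x * gr s ρ ρ x = 1 := h1 x (by rw [hx, abs_zero]; exact hr₀0)
    show gr s ρ ρ x * (ν t x * f x) = f x
    linear_combination (f x) * h3
  · intro M
    exact ⟨r₀, hr₀0, sq ρ ν M t, (sq_sml hS hρ hν M).sm t, fun x hx =>
      cq_sum hD.sm (fun j t => (cq_sml hS hρ hν j).sm t) (h1 x hx) M⟩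

end Vale.Agent.P088.H833.RC
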