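import Vale.Agent.P088.H72.B.Defs
import Vale.Agent.P088.H833.Phi

/-!
# P088, stage 2, row SER: formal harmonic coordinates near the boundary
-/

open MeasureTheory Set Filter
open scoped ContDiff Matrix Topology

noncomputable section

namespace Vale.Agent.P088.H833

open Vale.Agent.P088.LR Vale.Agent.P088.LR.B

variable {n : ℕ}

/-! ## Norms -/

theorem sm_le {E F : Type*} [NormedAddCommGroup E] [NormedSpace ℝ E] [NormedAddCommGroup F]
    [NormedSpace ℝ F] {f : E → F} (hf : ContDiff ℝ ∞ f) (l : ℕ) (x : E) : ContDiffAt ℝ l f x :=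
  (hf.of_le (by exact_mod_cast le_top)).contDiffAt

theorem cl_add {k : ℕ} {a b : ℝ} {f g : V n → ℝ} (hf : ContDiff ℝ ∞ f) (hg : ContDiff ℝ ∞ g)
    (h1 : Cl k a f) (h2 : Cl k b g) : Cl k (a + b) (fun x => f x + g x) := by
  intro l hl x
  have e : iteratedFDeriv ℝ l (fun x => f x + g x) x =
      iteratedFDeriv ℝ l f x + iteratedFDeriv ℝ l g x :=
    iteratedFDeriv_add_apply (sm_le hf l x) (sm_le hg l x)
  rw [e]
  exact (norm_add_le _ _).trans (add_le_add (h1 l hl x) (h2 l hl x))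

theorem cl_mul {k : ℕ} {a b : ℝ} {f g : V n → ℝ} (hf : ContDiff ℝ ∞ f) (hg : ContDiff ℝ ∞ g)
    (h1 : Cl k a f) (h2 : Cl k b g) : Cl k (2 ^ k * a * b) (fun x => f x * g x) := by
  intro l hl x
  have ha : 0 ≤ a := (norm_nonneg _).trans (h1 0 (Nat.zero_le _) x)
  have hb : 0 ≤ b := (norm_nonneg _).trans (h2 0 (Nat.zero_le _) x)
  refine (norm_iteratedFDeriv_mul_le hf hg x (n := l) (by exact_mod_cast le_top)).trans ?_
  calc ∑ i ∈ Finset.range (l + 1), (l.choose i : ℝ) * ‖iteratedFDeriv ℝ i f x‖ *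
        ‖iteratedFDeriv ℝ (l - i) g x‖
      ≤ ∑ i ∈ Finset.range (l + 1), (l.choose i : ℝ) * a * b := by
        refine Finset.sum_le_sum fun i hi => ?_
        have hi' : i ≤ l := by have := Finset.mem_range.1 hi; omega
        have := h1 i (hi'.trans hl) x
        have := h2 (l - i) (by omega) x
        gcongr
    _ = 2 ^ l * a * b := by
        rw [← Finset.sum_mul, ← Finset.sum_mul]
        have h := Nat.sum_range_choose l
        have h' : ∑ i ∈ Finset.range (l + 1), (l.choose i : ℝ) = 2 ^ l := by exact_mod_cast h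
        rw [h']
    _ ≤ 2 ^ k * a * b := by
        have : (2 : ℝ) ^ l ≤ 2 ^ k := pow_le_pow_right₀ (by norm_num) hl
        gcongr

theorem cl_pd1 {k : ℕ} {δ : ℝ} {f : V n → ℝ} (hf : ContDiff ℝ ∞ f) (h : Cl (k + 1) δ f)
    (i : Fin n) : Cl k δ (pd i f) := by
  intro l hl x
  let L : (V n →L[ℝ] ℝ) →L[ℝ] ℝ := ContinuousLinearMap.apply ℝ ℝ (Pi.single i (1 : ℝ))
  have hL : ‖L‖ ≤ 1 := by
    refine ContinuousLinearMap.opNorm_le_bound _ zero_le_one fun T => ?_
    have h1 : L T = T (Pi.single i 1) := rfl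
    rw [h1, one_mul]
    refine (T.le_opNorm _).trans ?_
    rw [Pi.norm_single, norm_one, mul_one]
  have h2 : pd i f = L ∘ fderiv ℝ f := rfl
  rw [h2]
  have hfd : ContDiff ℝ ∞ (fderiv ℝ f) := hf.fderiv_right (by simp)
  refine (ContinuousLinearMap.norm_iteratedFDeriv_comp_left L hfd.contDiffAt
    (by exact_mod_cast le_top)).trans ?_
  rw [norm_iteratedFDeriv_fderiv]
  calc ‖L‖ * ‖iteratedFDeriv ℝ (l + 1) f x‖ ≤ 1 * ‖iteratedFDeriv ℝ (l + 1) f x‖ :=
        mul_le_mul_of_nonneg_right hL (norm_nonneg _)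
    _ ≤ δ := by rw [one_mul]; exact h (l + 1) (by omega) x

theorem cl_le {k : ℕ} {a b : ℝ} {f : V n → ℝ} (h : Cl k a f) (hab : a ≤ b) : Cl k b f :=
  fun l hl x => (h l hl x).trans hab

theorem cd_pd {f : V n → ℝ} (hf : ContDiff ℝ ∞ f) (i : Fin n) : ContDiff ℝ ∞ (pd i f) :=
  (hf.fderiv_right (by simp)).clm_apply contDiff_const

/-! ## The filter of metrics close to the flat one -/

/-- Closeness of order `m`. -/
def Ad (m : ℕ) (s : MF n) : Prop :=
  SmM s ∧ ∀ i j, Cl m (1 / ((m : ℝ) + 1)) (fun x => s x i j - dl i j)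

theorem Ad.mono {m m' : ℕ} (h : m ≤ m') {s : MF n} (hs : Ad m' s) : Ad m s := by
  refine ⟨hs.1, fun i j l hl x => (hs.2 i j l (hl.trans h) x).trans ?_⟩
  have : (m : ℝ) ≤ m' := by exact_mod_cast h
  gcongr

/-- The filter. -/
def Fl (n : ℕ) : Filter (MF n) where
  sets := {S | ∃ m : ℕ, ∀ s, Ad m s → s ∈ S}
  univ_sets := ⟨0, fun _ _ => mem_univ _⟩
  sets_of_superset := fun ⟨m, h⟩ hST => ⟨m, fun s hs => hST (h s hs)⟩
  inter_sets := fun ⟨m, h⟩ ⟨m', h'⟩ => ⟨max m m', fun s hs =>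
    ⟨h s (hs.mono (le_max_left _ _)), h' s (hs.mono (le_max_right _ _))⟩⟩

theorem ev_iff {P : MF n → Prop} : (∀ᶠ s in Fl n, P s) ↔ ∃ m : ℕ, ∀ s, Ad m s → P s := Iff.rfl

theorem ev_sm : ∀ᶠ s in Fl n, SmM s := ev_iff.2 ⟨0, fun _ hs => hs.1⟩

/-- Bounded families. -/
structure Bd (F : MF n → V n → ℝ) : Prop where
  sm : ∀ s, SmM s → ContDiff ℝ ∞ (F s)
  bd : ∀ k, ∃ C, ∀ᶠ s in Fl n, Cl k C (F s)

/-- Small families. -/
structure Sml (F : MF n → V n → ℝ) : Prop where
  sm : ∀ s, SmM s → ContDiff ℝ ∞ (F s)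
  sml : ∀ k ε, 0 < ε → ∀ᶠ s in Fl n, Cl k ε (F s)

theorem Sml.toBd {F : MF n → V n → ℝ} (h : Sml F) : Bd F :=
  ⟨h.sm, fun k => ⟨1, h.sml k 1 one_pos⟩⟩

theorem Bd.add {F G : MF n → V n → ℝ} (hF : Bd F) (hG : Bd G) : Bd (fun s x => F s x + G s x) := by
  refine ⟨fun s hs => (hF.sm s hs).add (hG.sm s hs), fun k => ?_⟩
  obtain ⟨C, hC⟩ := hF.bd k
  obtain ⟨D, hD⟩ := hG.bd k
  refine ⟨C + D, ?_⟩
  filter_upwards [hC, hD, ev_sm] with s h1 h2 h3
  exact cl_add (hF.sm s h3) (hG.sm s h3) h1 h2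

theorem Sml.add {F G : MF n → V n → ℝ} (hF : Sml F) (hG : Sml G) :
    Sml (fun s x => F s x + G s x) := by
  refine ⟨fun s hs => (hF.sm s hs).add (hG.sm s hs), fun k ε hε => ?_⟩
  filter_upwards [hF.sml k (ε / 2) (by positivity), hG.sml k (ε / 2) (by positivity), ev_sm]
    with s h1 h2 h3
  exact cl_le (cl_add (hF.sm s h3) (hG.sm s h3) h1 h2) (by linarith)

theorem Bd.mul {F G : MF n → V n → ℝ} (hF : Bd F) (hG : Bd G) : Bd (fun s x => F s x * G s x) := by
  refine ⟨fun s hs => (hF.sm s hs).mul (hG.sm s hs), fun k => ?_⟩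
  obtain ⟨C, hC⟩ := hF.bd k
  obtain ⟨D, hD⟩ := hG.bd k
  refine ⟨2 ^ k * C * D, ?_⟩
  filter_upwards [hC, hD, ev_sm] with s h1 h2 h3
  exact cl_mul (hF.sm s h3) (hG.sm s h3) h1 h2

theorem Sml.mul {F G : MF n → V n → ℝ} (hF : Bd F) (hG : Sml G) :
    Sml (fun s x => F s x * G s x) := by
  refine ⟨fun s hs => (hF.sm s hs).mul (hG.sm s hs), fun k ε hε => ?_⟩
  obtain ⟨C, hC⟩ := hF.bd k
  filter_upwards [hC, hG.sml k (ε / (2 ^ k * (|C| + 1))) (by positivity), ev_sm] with s h1 h2 h3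
  refine cl_le (cl_mul (hF.sm s h3) (hG.sm s h3) h1 h2) ?_
  calc 2 ^ k * C * (ε / (2 ^ k * (|C| + 1))) ≤ 2 ^ k * (|C| + 1) * (ε / (2 ^ k * (|C| + 1))) := by
        have : C ≤ |C| + 1 := (le_abs_self C).trans (by linarith)
        gcongr
    _ = ε := by field_simp

theorem Sml.mul' {F G : MF n → V n → ℝ} (hF : Sml F) (hG : Bd G) :
    Sml (fun s x => F s x * G s x) := by
  have h : (fun s x => F s x * G s x) = fun s x => G s x * F s x := by
    funext s x; ring
  rw [h]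
  exact Sml.mul hG hF

theorem Bd.pdd {F : MF n → V n → ℝ} (hF : Bd F) (i : Fin n) : Bd (fun s => pd i (F s)) := by
  refine ⟨fun s hs => cd_pd (hF.sm s hs) i, fun k => ?_⟩
  obtain ⟨C, hC⟩ := hF.bd (k + 1)
  refine ⟨C, ?_⟩
  filter_upwards [hC, ev_sm] with s h1 h3
  exact cl_pd1 (hF.sm s h3) h1 i

theorem Sml.pdd {F : MF n → V n → ℝ} (hF : Sml F) (i : Fin n) : Sml (fun s => pd i (F s)) := by
  refine ⟨fun s hs => cd_pd (hF.sm s hs) i, fun k ε hε => ?_⟩
  filter_upwards [hF.sml (k + 1) ε hε, ev_sm] with s h1 h3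
  exact cl_pd1 (hF.sm s h3) h1 i

theorem Sml.zero : Sml (fun (_ : MF n) (_ : V n) => (0 : ℝ)) := by
  refine ⟨fun s hs => contDiff_const, fun k ε hε => ?_⟩
  refine Eventually.of_forall fun s l hl x => ?_
  have : iteratedFDeriv ℝ l (fun _ : V n => (0 : ℝ)) x = 0 := by
    have := iteratedFDeriv_fun_zero (𝕜 := ℝ) (E := V n) (F := ℝ) (n := l)
    exact congrFun this x
  rw [this, norm_zero]
  exact hε.le

theorem Sml.sum {ι : Type*} (t : Finset ι) {F : ι → MF n → V n → ℝ} (hF : ∀ i, Sml (F i)) :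
    Sml (fun s x => ∑ i ∈ t, F i s x) := by
  classical
  induction t using Finset.induction_on with
  | empty => simpa using Sml.zero
  | insert i t hi ih =>
    simp only [Finset.sum_insert hi]
    exact (hF i).add ih

theorem Bd.sum {ι : Type*} (t : Finset ι) {F : ι → MF n → V n → ℝ} (hF : ∀ i, Bd (F i)) :
    Bd (fun s x => ∑ i ∈ t, F i s x) := by
  classical
  induction t using Finset.induction_on with
  | empty => simpa using Sml.zero.toBd
  | insert i t hi ih =>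
    simp only [Finset.sum_insert hi]
    exact (hF i).add ih

theorem Bd.const (c : ℝ) : Bd (fun (_ : MF n) (_ : V n) => c) := by
  refine ⟨fun s hs => contDiff_const, fun k => ⟨|c|, ?_⟩⟩
  refine Eventually.of_forall fun s l hl x => ?_
  rcases Nat.eq_zero_or_pos l with rfl | h
  · rw [norm_iteratedFDeriv_zero, Real.norm_eq_abs]
  · rw [iteratedFDeriv_const_of_ne (by omega)]
    simp

/-- A fixed function, constant off a compact set. -/
theorem Bd.fix {f : V n → ℝ} {c : ℝ} (hf : ContDiff ℝ ∞ f) (h : HasCompactSupport (fun x => f x - c)) :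
    Bd (fun _ => f) := by
  have h1 : Bd (fun (_ : MF n) x => f x - c) := by
    have hs : ContDiff ℝ ∞ (fun x => f x - c) := hf.sub contDiff_const
    refine ⟨fun s _ => hs, fun k => ?_⟩
    have h2 : ∀ l : ℕ, ∃ C, ∀ x, ‖iteratedFDeriv ℝ l (fun x => f x - c) x‖ ≤ C := fun l =>
      (hs.continuous_iteratedFDeriv (m := l) (by exact_mod_cast le_top)).bounded_above_of_compact_support
        (h.iteratedFDeriv l)
    choose C hC using h2
    refine ⟨∑ i ∈ Finset.range (k + 1), |C i|, Eventually.of_forall fun s l hl x => ?_⟩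
    refine (hC l x).trans ((le_abs_self _).trans ?_)
    exact Finset.single_le_sum (f := fun i => |C i|) (fun _ _ => abs_nonneg _)
      (Finset.mem_range.2 (by omega))
  have h2 := h1.add (Bd.const c)
  simpa using h2

theorem Bd.smooth {F : MF n → V n → ℝ} (hF : Bd F) {θ : ℝ → ℝ} (hθ : ContDiff ℝ ∞ θ) :
    Bd (fun s x => θ (F s x)) := by
  refine ⟨fun s hs => hθ.comp (hF.sm s hs), fun k => ?_⟩
  obtain ⟨C, hC⟩ := hF.bd k
  have h2 : ∀ l : ℕ, ∃ M, ∀ t ∈ Icc (-C) C, ‖iteratedFDeriv ℝ l θ t‖ ≤ M := fun l =>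
    isCompact_Icc.exists_bound_of_continuousOn
      ((hθ.continuous_iteratedFDeriv (m := l) (by exact_mod_cast le_top)).continuousOn)
  choose M hM using h2
  set D : ℝ := max 1 C with hD
  set B : ℝ := ∑ i ∈ Finset.range (k + 1), |M i| with hB
  have hB0 : 0 ≤ B := Finset.sum_nonneg fun _ _ => abs_nonneg _
  refine ⟨(k.factorial : ℝ) * B * D ^ k, ?_⟩
  filter_upwards [hC, ev_sm] with s h1 h3
  intro l hl x
  have hr : ∀ x, F s x ∈ Icc (-C) C := fun x => by
    have := h1 0 (Nat.zero_le _) x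
    rw [norm_iteratedFDeriv_zero, Real.norm_eq_abs] at this
    exact abs_le.1 this
  have h4 := norm_iteratedFDeriv_comp_le (g := θ) (f := F s) (N := ∞) hθ (hF.sm s h3)
    (n := l) (by exact_mod_cast le_top) x (C := B) (D := D) (fun i hi => ?_) (fun i hi1 hi2 => ?_)
  · refine h4.trans ?_
    have h5 : (l.factorial : ℝ) ≤ k.factorial := by exact_mod_cast Nat.factorial_le hl
    have h6 : D ^ l ≤ D ^ k := pow_le_pow_right₀ (le_max_left _ _) hl
    have h7 : 0 ≤ D := le_trans zero_le_one (le_max_left _ _)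
    gcongr
  · refine (hM i _ (hr x)).trans ((le_abs_self _).trans ?_)
    exact Finset.single_le_sum (f := fun i => |M i|) (fun _ _ => abs_nonneg _)
      (Finset.mem_range.2 (by omega))
  · refine (h1 i (hi2.trans hl) x).trans ((le_max_right 1 C).trans ?_)
    calc D = D ^ 1 := (pow_one D).symm
      _ ≤ D ^ i := pow_le_pow_right₀ (le_max_left _ _) hi1

/-- `s - 1` is small. -/
theorem Sml.ent (i j : Fin n) : Sml (fun (s : MF n) x => s x i j - dl i j) := by
  refine ⟨fun s hs => (hs i j).sub contDiff_const, fun k ε hε => ?_⟩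
  obtain ⟨m, hm⟩ := exists_nat_one_div_lt hε
  refine ev_iff.2 ⟨max k m, fun s hs l hl x => ?_⟩
  refine (hs.2 i j l (hl.trans (le_max_left _ _)) x).trans (le_trans ?_ hm.le)
  have : (m : ℝ) ≤ (max k m : ℕ) := by exact_mod_cast le_max_right k m
  gcongr

theorem Bd.mat (i j : Fin n) : Bd (fun (s : MF n) x => s x i j) := by
  have h := (Sml.ent (n := n) i j).toBd.add (Bd.const (dl i j))
  simpa using h

/-! ## Operators on families -/

theorem Sml.drr {F : MF n → V n → ℝ} (hF : Sml F) : Sml (fun s => dr s (F s)) := by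
  have h : (fun s => B.dr s (F s)) =
      fun s x => ∑ i, pd i (fun y => ∑ j, s y i j * pd j (F s) y) x := rfl
  rw [h]
  exact Sml.sum _ fun i => (Sml.sum _ fun j => Sml.mul (Bd.mat i j) (hF.pdd j)).pdd i

theorem Bd.drr {F : MF n → V n → ℝ} (hF : Bd F) : Bd (fun s => dr s (F s)) := by
  have h : (fun s => B.dr s (F s)) =
      fun s x => ∑ i, pd i (fun y => ∑ j, s y i j * pd j (F s) y) x := rfl
  rw [h]
  exact Bd.sum _ fun i => (Bd.sum _ fun j => (Bd.mat i j).mul (hF.pdd j)).pdd i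

theorem Bd.grr {F G : MF n → V n → ℝ} (hF : Bd F) (hG : Bd G) : Bd (fun s => gr s (F s) (G s)) := by
  have h : (fun s => B.gr s (F s) (G s)) =
      fun s x => ∑ i, ∑ j, s x i j * pd i (F s) x * pd j (G s) x := rfl
  rw [h]
  exact Bd.sum _ fun i => Bd.sum _ fun j => ((Bd.mat i j).mul (hF.pdd i)).mul (hG.pdd j)

theorem Sml.grr {F G : MF n → V n → ℝ} (hF : Bd F) (hG : Sml G) :
    Sml (fun s => gr s (F s) (G s)) := by
  have h : (fun s => B.gr s (F s) (G s)) =
      fun s x => ∑ i, ∑ j, s x i j * pd i (F s) x * pd j (G s) x := rfl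
  rw [h]
  exact Sml.sum _ fun i => Sml.sum _ fun j => Sml.mul ((Bd.mat i j).mul (hF.pdd i)) (hG.pdd j)

theorem Sml.grr' {F G : MF n → V n → ℝ} (hF : Sml F) (hG : Bd G) :
    Sml (fun s => gr s (F s) (G s)) := by
  have h : (fun s => B.gr s (F s) (G s)) =
      fun s x => ∑ i, ∑ j, s x i j * pd i (F s) x * pd j (G s) x := rfl
  rw [h]
  exact Sml.sum _ fun i => Sml.sum _ fun j => Sml.mul' (Sml.mul (Bd.mat i j) (hF.pdd i)) (hG.pdd j)

/-! ## Leibniz -/

theorem da {f : V n → ℝ} (hf : ContDiff ℝ ∞ f) (x : V n) : DifferentiableAt ℝ f x :=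
  (hf.differentiable (by simp)).differentiableAt

theorem pd_add' {f g : V n → ℝ} (hf : ContDiff ℝ ∞ f) (hg : ContDiff ℝ ∞ g) (i : Fin n) (x : V n) :
    pd i (fun y => f y + g y) x = pd i f x + pd i g x := by
  unfold pd
  rw [fderiv_fun_add (da hf x) (da hg x)]
  rfl

theorem pd_mul' {f g : V n → ℝ} (hf : ContDiff ℝ ∞ f) (hg : ContDiff ℝ ∞ g) (i : Fin n) (x : V n) :
    pd i (fun y => f y * g y) x = f x * pd i g x + g x * pd i f x := by
  unfold pd
  rw [fderiv_fun_mul (da hf x) (da hg x)]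
  rfl

theorem pd_pow' {f : V n → ℝ} (hf : ContDiff ℝ ∞ f) (m : ℕ) (i : Fin n) (x : V n) :
    pd i (fun y => f y ^ (m + 1)) x = ((m : ℝ) + 1) * f x ^ m * pd i f x := by
  unfold pd
  rw [fderiv_fun_pow (m + 1) (da hf x)]
  simp

theorem pd_cst (c : ℝ) (i : Fin n) (x : V n) : pd i (fun _ : V n => c) x = 0 := by
  unfold pd
  rw [fderiv_const_apply]
  rfl

theorem pd_coord (a j : Fin n) (x : V n) : pd j (fun y : V n => y a) x = dl j a := by
  unfold pd
  have h : fderiv ℝ (fun y : V n => y a) x = ContinuousLinearMap.proj a :=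
    (ContinuousLinearMap.proj (R := ℝ) (φ := fun _ : Fin n => ℝ) a).fderiv
  rw [h]
  show (Pi.single j (1 : ℝ) : Fin n → ℝ) a = _
  rw [dl, Matrix.one_apply, Pi.single_apply]
  by_cases h : a = j
  · subst h; simp
  · rw [if_neg h, if_neg (fun h' => h h'.symm)]

/-- The flux. -/
def fl (s : MF n) (u : V n → ℝ) (i : Fin n) (y : V n) : ℝ := ∑ j, s y i j * pd j u y

theorem cd_fl {s : MF n} (hs : SmM s) {u : V n → ℝ} (hu : ContDiff ℝ ∞ u) (i : Fin n) :
    ContDiff ℝ ∞ (fl s u i) :=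
  ContDiff.sum fun j _ => (hs i j).mul (cd_pd hu j)

theorem dr_eq (s : MF n) (u : V n → ℝ) (x : V n) : dr s u x = ∑ i, pd i (fl s u i) x := rfl

theorem gr_eq (s : MF n) (u v : V n → ℝ) (x : V n) :
    gr s u v x = ∑ i, pd i u x * fl s v i x := by
  unfold gr fl
  refine Finset.sum_congr rfl fun i _ => ?_
  rw [Finset.mul_sum]
  exact Finset.sum_congr rfl fun j _ => by ring

theorem dr_add {s : MF n} (hs : SmM s) {u v : V n → ℝ} (hu : ContDiff ℝ ∞ u) (hv : ContDiff ℝ ∞ v)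
    (x : V n) : dr s (fun y => u y + v y) x = dr s u x + dr s v x := by
  rw [dr_eq, dr_eq, dr_eq, ← Finset.sum_add_distrib]
  refine Finset.sum_congr rfl fun i _ => ?_
  have h : fl s (fun y => u y + v y) i = fun y => fl s u i y + fl s v i y := by
    funext y
    unfold fl
    rw [← Finset.sum_add_distrib]
    exact Finset.sum_congr rfl fun j _ => by rw [pd_add' hu hv]; ring
  rw [h, pd_add' (cd_fl hs hu i) (cd_fl hs hv i)]

theorem dr_mul {s : MF n} (hs : SmM s) {u v : V n → ℝ} (hu : ContDiff ℝ ∞ u) (hv : ContDiff ℝ ∞ v)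
    (x : V n) : dr s (fun y => u y * v y) x =
      u x * dr s v x + v x * dr s u x + (gr s u v x + gr s v u x) := by
  rw [dr_eq, dr_eq, dr_eq, gr_eq, gr_eq, Finset.mul_sum, Finset.mul_sum,
    ← Finset.sum_add_distrib, ← Finset.sum_add_distrib, ← Finset.sum_add_distrib]
  refine Finset.sum_congr rfl fun i _ => ?_
  have h : fl s (fun y => u y * v y) i = fun y => u y * fl s v i y + v y * fl s u i y := by
    funext y
    unfold fl
    rw [Finset.mul_sum, Finset.mul_sum, ← Finset.sum_add_distrib]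
    exact Finset.sum_congr rfl fun j _ => by rw [pd_mul' hu hv]; ring
  have h1 := cd_fl hs hu i
  have h2 := cd_fl hs hv i
  rw [h, pd_add' (hu.mul h2) (hv.mul h1), pd_mul' hu h2, pd_mul' hv h1]
  ring

theorem fl_pow {s : MF n} {ρ : V n → ℝ} (hρ : ContDiff ℝ ∞ ρ) (m : ℕ) (i : Fin n) (y : V n) :
    fl s (fun y => ρ y ^ (m + 1)) i y = ((m : ℝ) + 1) * ρ y ^ m * fl s ρ i y := by
  unfold fl
  rw [Finset.mul_sum]
  exact Finset.sum_congr rfl fun j _ => by rw [pd_pow' hρ]; ring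

theorem gr_pow {s : MF n} {ρ v : V n → ℝ} (hρ : ContDiff ℝ ∞ ρ) (m : ℕ) (x : V n) :
    gr s (fun y => ρ y ^ (m + 1)) v x = ((m : ℝ) + 1) * ρ x ^ m * gr s ρ v x := by
  rw [gr_eq, gr_eq, Finset.mul_sum]
  exact Finset.sum_congr rfl fun i _ => by rw [pd_pow' hρ]; ring

theorem gr_pow' {s : MF n} {ρ v : V n → ℝ} (hρ : ContDiff ℝ ∞ ρ) (m : ℕ) (x : V n) :
    gr s v (fun y => ρ y ^ (m + 1)) x = ((m : ℝ) + 1) * ρ x ^ m * gr s v ρ x := by
  rw [gr_eq, gr_eq, Finset.mul_sum]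
  exact Finset.sum_congr rfl fun i _ => by rw [fl_pow hρ]; ring

theorem dr_pow {s : MF n} (hs : SmM s) {ρ : V n → ℝ} (hρ : ContDiff ℝ ∞ ρ) (m : ℕ) (x : V n) :
    dr s (fun y => ρ y ^ (m + 2)) x = ((m : ℝ) + 2) * ((m : ℝ) + 1) * ρ x ^ m * gr s ρ ρ x +
      ((m : ℝ) + 2) * ρ x ^ (m + 1) * dr s ρ x := by
  rw [dr_eq, dr_eq, gr_eq, Finset.mul_sum, Finset.mul_sum, ← Finset.sum_add_distrib]
  refine Finset.sum_congr rfl fun i _ => ?_
  have h : fl s (fun y => ρ y ^ (m + 2)) i = fun y => (((m : ℝ) + 2) * ρ y ^ (m + 1)) * fl s ρ i y := by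
    funext y
    have := fl_pow (s := s) hρ (m + 1) i y
    rw [show m + 2 = m + 1 + 1 from rfl, this]
    push_cast
    ring
  have h1 : ContDiff ℝ ∞ (fun y => ((m : ℝ) + 2) * ρ y ^ (m + 1)) := contDiff_const.mul (hρ.pow _)
  rw [h, pd_mul' h1 (cd_fl hs hρ i), pd_mul' contDiff_const (hρ.pow _), pd_pow' hρ, pd_cst]
  ring

/-! ## The series -/

section series

variable (ρ : V n → ℝ) (ν : MF n → V n → ℝ) (a : Fin n)

/-- The first coefficient. -/
def c0 (s : MF n) (x : V n) : ℝ := (-1) * (ν s x * ∑ i, pd i ρ x * (s x i a - dl i a))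

/-- The first error. -/
def E0 (s : MF n) (x : V n) : ℝ :=
  ∑ i, pd i (fun y => s y i a - dl i a) x + dr s (fun y => ρ y * c0 ρ ν a s y) x

/-- Next coefficient. -/
def cn (j : ℕ) (E : MF n → V n → ℝ) (s : MF n) (x : V n) : ℝ :=
  (-(((j : ℝ) + 2) * ((j : ℝ) + 1))⁻¹) * (ν s x * E s x)

/-- Next error. -/
def En (j : ℕ) (c : MF n → V n → ℝ) (s : MF n) (x : V n) : ℝ :=
  ((j : ℝ) + 2) * (c s x * dr s ρ x) + (((j : ℝ) + 2) * (gr s ρ (c s) x + gr s (c s) ρ x) +
    ρ x * dr s (c s) x)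

/-- The partial sums and the errors. -/
def ser : ℕ → (MF n → V n → ℝ) × (MF n → V n → ℝ)
  | 0 => (c0 ρ ν a, E0 ρ ν a)
  | j + 1 => (fun s x => (ser j).1 s x + ρ x ^ (j + 1) * cn ν j (ser j).2 s x,
      En ρ j (cn ν j (ser j).2))

variable {ρ ν a}

theorem c0_sml (hρ : Bd (fun _ => ρ)) (hν : Bd ν) : Sml (c0 ρ ν a) :=
  Sml.mul (Bd.const (-1)) (Sml.mul hν (Sml.sum _ fun i => Sml.mul (hρ.pdd i) (Sml.ent i a)))

theorem E0_sml (hρ : Bd (fun _ => ρ)) (hν : Bd ν) : Sml (E0 ρ ν a) :=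
  Sml.add (Sml.sum _ fun i => (Sml.ent i a).pdd i) (Sml.drr (Sml.mul hρ (c0_sml hρ hν)))

theorem cn_sml (hν : Bd ν) (j : ℕ) {E : MF n → V n → ℝ} (hE : Sml E) : Sml (cn ν j E) :=
  Sml.mul (Bd.const _) (Sml.mul hν hE)

theorem En_sml (hρ : Bd (fun _ => ρ)) (j : ℕ) {c : MF n → V n → ℝ} (hc : Sml c) :
    Sml (En ρ j c) :=
  Sml.add (Sml.mul (Bd.const _) (Sml.mul' hc hρ.drr)) (Sml.add (Sml.mul (Bd.const _)
    (Sml.add (Sml.grr hρ hc) (Sml.grr' hc hρ))) (Sml.mul hρ (Sml.drr hc)))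

theorem Bd.pow {F : MF n → V n → ℝ} (hF : Bd F) (m : ℕ) : Bd (fun s x => F s x ^ m) := by
  induction m with
  | zero => simpa using Bd.const 1
  | succ m ih => simp only [pow_succ]; exact ih.mul hF

theorem ser_sml (hρ : Bd (fun _ => ρ)) (hν : Bd ν) (j : ℕ) :
    Sml (ser ρ ν a j).1 ∧ Sml (ser ρ ν a j).2 := by
  induction j with
  | zero => exact ⟨c0_sml hρ hν, E0_sml hρ hν⟩
  | succ j ih =>
    have h1 := cn_sml hν j ih.2
    exact ⟨Sml.add ih.1 (Sml.mul (hρ.pow (j + 1)) h1), En_sml hρ j h1⟩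

theorem ser_zero {s : MF n} {x : V n} (hx : ρ x = 0) (j : ℕ) :
    (ser ρ ν a j).1 s x = c0 ρ ν a s x := by
  induction j with
  | zero => rfl
  | succ j ih =>
    show (ser ρ ν a j).1 s x + ρ x ^ (j + 1) * cn ν j (ser ρ ν a j).2 s x = _
    rw [ih, hx, zero_pow (Nat.succ_ne_zero j), zero_mul, add_zero]

theorem dr_coord {s : MF n} (hs : SmM s) (x : V n) :
    dr s (fun y => y a) x = ∑ i, pd i (fun y => s y i a - dl i a) x := by
  rw [dr_eq]
  refine Finset.sum_congr rfl fun i _ => ?_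
  have h : fl s (fun y => y a) i = fun y => (s y i a - dl i a) + dl i a := by
    funext y
    unfold fl
    rw [sub_add_cancel, Finset.sum_eq_single a]
    · rw [pd_coord, dl, Matrix.one_apply_eq, mul_one]
    · intro j _ hj
      rw [pd_coord, dl, Matrix.one_apply_ne hj, mul_zero]
    · intro h; exact absurd (Finset.mem_univ _) h
  rw [h, pd_add' ((hs i a).sub contDiff_const) contDiff_const, pd_cst, add_zero]

theorem ser_dr (hρ : Bd (fun _ => ρ)) (hν : Bd ν) {s : MF n} (hs : SmM s) {x : V n}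
    (hx : ν s x * gr s ρ ρ x = 1) (j : ℕ) :
    dr s (fun y => y a + ρ y * (ser ρ ν a j).1 s y) x = ρ x ^ j * (ser ρ ν a j).2 s x := by
  have sρ : ContDiff ℝ ∞ ρ := hρ.sm s hs
  have sy : ContDiff ℝ ∞ (fun y : V n => y a) := contDiff_apply ℝ ℝ a
  induction j with
  | zero =>
    have h1 := (ser_sml (a := a) hρ hν 0).1.sm s hs
    rw [dr_add hs sy (sρ.mul h1), dr_coord hs, pow_zero, one_mul]
    rfl
  | succ j ih =>
    have h0 := (ser_sml (a := a) hρ hν j).1.sm s hs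
    have h1 := (cn_sml hν j (ser_sml (a := a) hρ hν j).2).sm s hs
    set c := cn ν j (ser ρ ν a j).2 s with hc
    have e1 : (fun y => y a + ρ y * (ser ρ ν a (j + 1)).1 s y) =
        fun y => (y a + ρ y * (ser ρ ν a j).1 s y) + ρ y ^ (j + 2) * c y := by
      funext y
      show y a + ρ y * ((ser ρ ν a j).1 s y + ρ y ^ (j + 1) * c y) = _
      ring
    have e2 : (ser ρ ν a (j + 1)).2 s x = ((j : ℝ) + 2) * (c x * dr s ρ x) +
        (((j : ℝ) + 2) * (gr s ρ c x + gr s c ρ x) + ρ x * dr s c x) := rfl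
    have e3 : c x = (-(((j : ℝ) + 2) * ((j : ℝ) + 1))⁻¹) * (ν s x * (ser ρ ν a j).2 s x) := rfl
    have hj : (((j : ℝ) + 2) * ((j : ℝ) + 1)) ≠ 0 := by positivity
    have e4 : ((j : ℝ) + 2) * ((j : ℝ) + 1) * gr s ρ ρ x * c x = - (ser ρ ν a j).2 s x := by
      rw [e3]
      calc _ = - ((((j : ℝ) + 2) * ((j : ℝ) + 1)) * (((j : ℝ) + 2) * ((j : ℝ) + 1))⁻¹) *
            (ν s x * gr s ρ ρ x) * (ser ρ ν a j).2 s x := by ring
        _ = _ := by rw [hx, mul_inv_cancel₀ hj]; ring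
    rw [e1, dr_add hs (sy.add (sρ.mul h0)) ((sρ.pow _).mul h1), ih, dr_mul hs (sρ.pow _) h1,
      dr_pow hs sρ, show j + 2 = (j + 1) + 1 from rfl, gr_pow sρ, gr_pow' sρ, e2]
    push_cast
    linear_combination (ρ x ^ j) * e4

end series

/-! ## The reciprocal of `s(∇ρ, ∇ρ)` near the boundary -/

/-- A smooth function equal to `1/t` for `t ≥ m`. -/
def rcp (m t : ℝ) : ℝ := t / (t ^ 2 + (1 - Real.smoothTransition (t / m)))

theorem rcp_pos {m : ℝ} (hm : 0 < m) (t : ℝ) :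
    0 < t ^ 2 + (1 - Real.smoothTransition (t / m)) := by
  have h1 := Real.smoothTransition.le_one (t / m)
  rcases le_or_gt t 0 with h | h
  · have : Real.smoothTransition (t / m) = 0 :=
      Real.smoothTransition.zero_of_nonpos (div_nonpos_of_nonpos_of_nonneg h hm.le)
    rw [this]
    positivity
  · have : 0 < t ^ 2 := by positivity
    linarith

theorem rcp_smooth {m : ℝ} (hm : 0 < m) : ContDiff ℝ ∞ (rcp m) := by
  have h1 : ContDiff ℝ ∞ (fun t : ℝ => Real.smoothTransition (t / m)) :=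
    Real.smoothTransition.contDiff.comp (contDiff_id.div_const m)
  exact contDiff_id.div ((contDiff_id.pow 2).add (contDiff_const.sub h1))
    fun t => (rcp_pos hm t).ne'

theorem rcp_mul {m t : ℝ} (hm : 0 < m) (ht : m ≤ t) : rcp m t * t = 1 := by
  have : Real.smoothTransition (t / m) = 1 :=
    Real.smoothTransition.one_of_one_le ((one_le_div hm).2 ht)
  have ht0 : 0 < t := hm.trans_le ht
  unfold rcp
  rw [this]
  field_simp
  ring

/-- **Row SER.** -/
theorem rowSER : RowSER := by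
  intro n ρ hD k ε hε
  -- the function `ρ`
  have hcore : IsCompact (core n) := by
    have : core n = Icc (fun _ => 1 / 4) (fun _ => 3 / 4) := by
      ext x
      exact ⟨fun h => ⟨fun j => (h j).1, fun j => (h j).2⟩, fun h j => ⟨h.1 j, h.2 j⟩⟩
    rw [this]
    exact isCompact_Icc
  have hcs : HasCompactSupport (fun x => ρ x - (-1)) := by
    refine HasCompactSupport.of_support_subset_isCompact hcore ?_
    intro x hx
    by_contra h
    exact hx (by simp [hD.off x h])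
  have hρ : Bd (fun _ => ρ) := Bd.fix hD.sm hcs
  -- lower bound of the gradient
  have hN1 : ContDiff ℝ ∞ (fun x => ∑ i, pd i ρ x * pd i ρ x) :=
    ContDiff.sum fun i _ => (cd_pd hD.sm i).mul (cd_pd hD.sm i)
  obtain ⟨m', hm', hm'2⟩ := hcore.exists_forall_le' (f := fun x => |ρ x| + ∑ i, pd i ρ x * pd i ρ x)
    (a := 0) (hD.sm.continuous.abs.add hN1.continuous).continuousOn (by
      intro x _
      by_contra hx
      have h1 : 0 ≤ |ρ x| := abs_nonneg _
      have h2 : 0 ≤ ∑ i, pd i ρ x * pd i ρ x := Finset.sum_nonneg fun i _ => mul_self_nonneg _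
      have h3 : |ρ x| = 0 := by linarith
      have h4 : ∑ i, pd i ρ x * pd i ρ x = 0 := by linarith
      have h5 := (Finset.sum_eq_zero_iff_of_nonneg (fun i _ => mul_self_nonneg _)).1 h4
      refine hD.nz x (abs_eq_zero.1 h3) ?_
      refine ContinuousLinearMap.ext fun v => ?_
      have hv : v = ∑ i, v i • (Pi.single i (1 : ℝ) : V n) := by
        funext j
        simp [Finset.sum_apply, Pi.single_apply]
      rw [hv, map_sum]
      refine Finset.sum_eq_zero fun i hi => ?_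
      rw [map_smul]
      have : fderiv ℝ ρ x (Pi.single i 1) = 0 := mul_self_eq_zero.1 (h5 i hi)
      rw [this, smul_zero])
  set r₀ : ℝ := min 1 (m' / 2) with hr₀
  have hr₀0 : 0 < r₀ := by positivity
  have hlow : ∀ x, |ρ x| < r₀ → m' / 2 ≤ ∑ i, pd i ρ x * pd i ρ x := by
    intro x hx
    have hx1 : x ∈ core n := by
      by_contra h
      rw [hD.off x h] at hx
      have : r₀ ≤ 1 := min_le_left _ _
      rw [abs_neg, abs_one] at hx
      linarith
    have h1 := hm'2 x hx1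
    have h2 : r₀ ≤ m' / 2 := min_le_right _ _
    linarith
  -- the reciprocal
  set ν : MF n → V n → ℝ := fun s x => rcp (m' / 4) (gr s ρ ρ x) with hν'
  have hν : Bd ν := (hρ.grr hρ).smooth (rcp_smooth (by positivity))
  have hdiff : Sml (fun s x => ∑ i, ∑ j, (s x i j - dl i j) * (pd i ρ x * pd j ρ x)) :=
    Sml.sum _ fun i => Sml.sum _ fun j => Sml.mul' (Sml.ent i j) ((hρ.pdd i).mul (hρ.pdd j))
  have hN : ∀ᶠ s in Fl n, ∀ x, |ρ x| < r₀ → ν s x * gr s ρ ρ x = 1 := by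
    filter_upwards [hdiff.sml 0 (m' / 4) (by positivity)] with s hs x hx
    refine rcp_mul (by positivity) ?_
    have h1 := hs 0 le_rfl x
    rw [norm_iteratedFDeriv_zero, Real.norm_eq_abs] at h1
    have h2 : gr s ρ ρ x = (∑ i, ∑ j, (s x i j - dl i j) * (pd i ρ x * pd j ρ x)) +
        ∑ i, pd i ρ x * pd i ρ x := by
      unfold gr
      rw [← Finset.sum_add_distrib]
      refine Finset.sum_congr rfl fun i _ => ?_
      have h3 : pd i ρ x * pd i ρ x = ∑ j, dl i j * (pd i ρ x * pd j ρ x) := by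
        rw [Finset.sum_eq_single i]
        · rw [dl, Matrix.one_apply_eq, one_mul]
        · intro j _ hj
          rw [dl, Matrix.one_apply_ne (fun h => hj h.symm), zero_mul]
        · intro h; exact absurd (Finset.mem_univ _) h
      rw [h3, ← Finset.sum_add_distrib]
      exact Finset.sum_congr rfl fun j _ => by ring
    have h4 := hlow x hx
    have h5 := (abs_le.1 h1).1
    rw [h2]
    linarith
  have hsm : ∀ᶠ s in Fl n, ∀ a : Fin n, Cl k ε (fun x => ρ x * (ser ρ ν a (k - 1)).1 s x) := by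
    rw [eventually_all]
    intro a
    exact (Sml.mul hρ (ser_sml hρ hν (k - 1)).1).sml k ε hε
  obtain ⟨K, hK⟩ := ev_iff.1 (hN.and hsm)
  refine ⟨K, 1 / ((K : ℝ) + 1), by positivity, fun s hs _ hcl a => ?_⟩
  obtain ⟨h1, h2⟩ := hK s ⟨hs, hcl⟩
  refine ⟨(ser ρ ν a (k - 1)).1 s, (ser ρ ν a (k - 1)).2 s,
    (ser_sml hρ hν (k - 1)).1.sm s hs, (ser_sml hρ hν (k - 1)).2.sm s hs, h2 a, ?_, r₀, hr₀0, ?_⟩
  · intro x hx
    rw [ser_zero hx]
    have h3 := h1 x (by rw [hx, abs_zero]; exact hr₀0)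
    unfold c0
    have h4 : ∑ i, pd i ρ x * s x i a = ∑ i, pd i ρ x * (s x i a - dl i a) + pd a ρ x := by
      have : pd a ρ x = ∑ i, pd i ρ x * dl i a := by
        rw [Finset.sum_eq_single a]
        · rw [dl, Matrix.one_apply_eq, mul_one]
        · intro j _ hj
          rw [dl, Matrix.one_apply_ne hj, mul_zero]
        · intro h; exact absurd (Finset.mem_univ _) h
      rw [this, ← Finset.sum_add_distrib]
      exact Finset.sum_congr rfl fun i _ => by ring
    rw [h4]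
    linear_combination (-(∑ i, pd i ρ x * (s x i a - dl i a))) * h3
  · intro x hx
    exact ser_dr hρ hν hs (h1 x hx) (k - 1)

end Vale.Agent.P088.H833
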