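import Vale.Agent.P088.H501.BorelRow
import Vale.Agent.P088.H833.RecC

/-!
# P088, row Y_BOR, first half: formal harmonic coordinates of `σ · 1` at the boundary
-/

open MeasureTheory Set Filter
open scoped ContDiff Matrix Topology

noncomputable section

namespace Vale.Agent.P088.H833.RC

open Vale.Agent.P088.LR Vale.Agent.P088.LR.B Vale.Agent.P088.LR.CF Vale.Agent.P088.H833
open Vale.Agent.P088.LR.H501B

variable {n : ℕ}

theorem pd_cmul {f : V n → ℝ} (hf : ContDiff ℝ ∞ f) (c : ℝ) (i : Fin n) (x : V n) :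
    pd i (fun y => c * f y) x = c * pd i f x := by
  rw [pd_mul' contDiff_const hf, pd_cst]
  ring

theorem dr_cmul {s : MF n} (hs : SmM s) {u : V n → ℝ} (hu : ContDiff ℝ ∞ u) (c : ℝ) (x : V n) :
    dr s (fun y => c * u y) x = c * dr s u x := by
  rw [dr_eq, dr_eq, Finset.mul_sum]
  refine Finset.sum_congr rfl fun i _ => ?_
  have h : fl s (fun y => c * u y) i = fun y => c * fl s u i y := by
    funext y
    unfold fl
    rw [Finset.mul_sum]
    exact Finset.sum_congr rfl fun j _ => by rw [pd_cmul hu]; ring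
  rw [h, pd_cmul (cd_fl hs hu i)]

theorem smM_sc {σ : V n → ℝ} (hσ : ContDiff ℝ ∞ σ) : SmM (sc σ) := fun i j => cd_sc hσ i j

theorem symm_sc (σ : V n → ℝ) (x : V n) : (sc σ x).IsSymm := by
  unfold sc
  exact Matrix.IsSymm.smul Matrix.isSymm_one _

theorem dr_sc_coord {σ : V n → ℝ} (a : Fin n) (x : V n) :
    dr (sc σ) (fun y => y a) x = pd a σ x := by
  rw [dr_eq, Finset.sum_eq_single a]
  · have h : fl (sc σ) (fun y => y a) a = σ := by
      funext y
      unfold fl
      rw [Finset.sum_eq_single a]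
      · simp [sc, pd_coord]
      · intro j _ hj
        simp [sc, Matrix.one_apply_ne (Ne.symm hj)]
      · intro h; exact absurd (Finset.mem_univ _) h
    rw [h]
  · intro i _ hi
    have h : fl (sc σ) (fun y => y a) i = fun _ => 0 := by
      funext y
      unfold fl
      refine Finset.sum_eq_zero fun j _ => ?_
      by_cases hj : j = a
      · subst hj; simp [sc, Matrix.one_apply_ne hi]
      · rw [pd_coord, dl, Matrix.one_apply_ne hj, mul_zero]
    rw [h, pd_cst]
  · intro h; exact absurd (Finset.mem_univ _) h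

theorem gr_sc (σ u v : V n → ℝ) (x : V n) :
    gr (sc σ) u v x = σ x * ∑ i, pd i u x * pd i v x := by
  unfold gr
  rw [Finset.mul_sum]
  refine Finset.sum_congr rfl fun i _ => ?_
  rw [Finset.sum_eq_single i]
  · simp [sc]; ring
  · intro j _ hj
    simp [sc, Matrix.one_apply_ne (Ne.symm hj)]
  · intro h; exact absurd (Finset.mem_univ _) h

/-- Cut-off of a function with an expansion in powers of `ρ`. -/
theorem chi_exp {ρ u : V n → ℝ} (hρ : ContDiff ℝ ∞ ρ) (hu : ContDiff ℝ ∞ u) {a : ℕ → V n → ℝ}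
    (h : ∀ M : ℕ, ∃ h : V n → ℝ, ContDiff ℝ ∞ h ∧
      ∀ x, u x = (∑ m ∈ Finset.range M, ρ x ^ m * a m x) + ρ x ^ M * h x) (M : ℕ) :
    ∃ h : V n → ℝ, ContDiff ℝ ∞ h ∧
      ∀ x, chi (ρ x) * u x = (∑ m ∈ Finset.range M, ρ x ^ m * a m x) + ρ x ^ M * h x := by
  obtain ⟨D, hD, hD1⟩ := divr one_pos M
  obtain ⟨g, hg, hg1⟩ := h M
  refine ⟨fun x => g x + D (ρ x) * u x, hg.add ((hD.comp hρ).mul hu), fun x => ?_⟩
  have h1 := hD1 (ρ x)
  rw [div_one] at h1
  have h2 := hg1 x
  linear_combination u x * h1 + h2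

/-- **First half of Y_BOR.** -/
theorem bor1 {ρ : V n → ℝ} (hD : Dom ρ) {σ : V n → ℝ} (hσ : SmP σ)
    (hoff : ∀ x ∉ core n, σ x = 1) : ∃ w₁ : V n → V n, ContDiff ℝ ∞ w₁ ∧ HasCompactSupport w₁ ∧
    Cl 1 (1 / 4) w₁ ∧ (∀ x, ρ x = 0 → w₁ x = 0) ∧
    (∀ a x, ρ x = 0 → gr (sc σ) (fun y => y a + w₁ y a) ρ x = σ x * pd a ρ x) ∧
    (∀ a (m : ℕ), ∃ r > 0, ∃ E : V n → ℝ, ContDiff ℝ ∞ E ∧ ∀ x, |ρ x| < r →
      dr (sc σ) (fun y => y a + w₁ y a) x = ρ x ^ m * E x) := by
  have hρ := hD.sm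
  have hs : SmM (sc σ) := smM_sc hσ.1
  -- the coefficients
  have key : ∀ a : Fin n, ∃ c : ℕ → V n → ℝ, (∀ i, ContDiff ℝ ∞ (c i)) ∧ (∀ x, c 0 x = 0) ∧
      (∀ x, c 1 x = 0) ∧ ∀ M : ℕ, ∃ r > 0, ∃ E, ContDiff ℝ ∞ E ∧ ∀ x, |ρ x| < r →
        pd a σ x + dr (sc σ) (fun y => ∑ i ∈ Finset.range (M + 2), ρ y ^ i * c i y) x =
          ρ x ^ M * E x := by
    intro a
    obtain ⟨K, δ, hδ, hK⟩ := recC ρ hD σ hσ hoff 0 1 one_pos
    have hsupp : HasCompactSupport (pd a σ) := by
      have h1 : HasCompactSupport (fun x => σ x - 1) := by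
        refine HasCompactSupport.of_support_subset_isCompact core_cpt ?_
        intro x hx
        by_contra h
        exact hx (by simp [hoff x h])
      have h2 : pd a σ = pd a (fun x => σ x - 1) := by
        funext x
        unfold pd
        rw [fderiv_sub_const]
      rw [h2]
      have h3 := h1.fderiv (𝕜 := ℝ)
      exact h3.comp_left (g := fun L : V n →L[ℝ] ℝ => L (Pi.single a 1)) rfl
    obtain ⟨B, hB, hB1⟩ := exists_cl (k := K) (cd_pd hσ.1 a) hsupp
    set l : ℝ := δ / B with hl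
    have hl0 : 0 < l := by positivity
    have hg : Cl K δ (fun x => l * pd a σ x) := by
      intro j hj x
      have e0 : (fun x => l * pd a σ x) = l • pd a σ := rfl
      have e : iteratedFDeriv ℝ j (l • pd a σ) x = l • iteratedFDeriv ℝ j (pd a σ) x :=
        iteratedFDeriv_const_smul_apply (sm_le (cd_pd hσ.1 a) j x)
      rw [e0, e, norm_smul, Real.norm_eq_abs, abs_of_pos hl0]
      calc l * ‖iteratedFDeriv ℝ j (pd a σ) x‖ ≤ l * B := by
            gcongr
            exact hB1 j hj x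
        _ = δ := by rw [hl]; field_simp
    have hz : ∀ m ε, 0 < ε → Cl m ε (fun _ : V n => (0 : ℝ)) := by
      intro m ε hε j hj x
      have : iteratedFDeriv ℝ j (fun _ : V n => (0 : ℝ)) x = 0 := by
        have := iteratedFDeriv_fun_zero (𝕜 := ℝ) (E := V n) (F := ℝ) (n := j)
        exact congrFun this x
      rw [this, norm_zero]
      exact hε.le
    obtain ⟨c, hc, -, hc0, hc1, -, hcE⟩ := hK (sc σ) hs (symm_sc σ)
      (fun i j => by simpa using hz K δ hδ) (fun _ => 0) (fun x => l * pd a σ x) contDiff_const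
      (contDiff_const.mul (cd_pd hσ.1 a)) (hz K δ hδ) hg
    refine ⟨fun i x => l⁻¹ * c i x, fun i => contDiff_const.mul (hc i), fun x => ?_,
      fun x => ?_, fun M => ?_⟩
    · show l⁻¹ * c 0 x = 0
      rw [hc0 x, mul_zero]
    · show l⁻¹ * c 1 x = 0
      rw [hc1 (fun _ => rfl) x, mul_zero]
    obtain ⟨r, hr, E, hE, hE1⟩ := hcE M
    refine ⟨r, hr, fun x => l⁻¹ * E x, contDiff_const.mul hE, fun x hx => ?_⟩
    have e : (fun y => ∑ i ∈ Finset.range (M + 2), ρ y ^ i * (l⁻¹ * c i y)) =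
        fun y => l⁻¹ * ∑ i ∈ Finset.range (M + 2), ρ y ^ i * c i y := by
      funext y
      rw [Finset.mul_sum]
      exact Finset.sum_congr rfl fun i _ => by ring
    rw [e, dr_cmul hs (ContDiff.sum fun i _ => (hρ.pow i).mul (hc i))]
    have h1 := hE1 x hx
    have h2 : l⁻¹ * l = 1 := inv_mul_cancel₀ hl0.ne'
    linear_combination l⁻¹ * h1 - (pd a σ x) * h2
  choose c hc hc0 hc1 hE using key
  -- the cut-off
  have hchi : ContDiff ℝ ∞ (fun x => chi (ρ x)) := chi_smooth.comp hρ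
  have hcs : HasCompactSupport (fun x => chi (ρ x)) := by
    refine HasCompactSupport.of_support_subset_isCompact core_cpt ?_
    intro x hx
    by_contra h
    refine hx ?_
    show chi (ρ x) = 0
    rw [hD.off x h]
    exact chi_zero (by norm_num)
  obtain ⟨B, hB, hB1⟩ := exists_cl (k := 1) hchi hcs
  obtain ⟨δ, hδ, hbor⟩ := borel hD 1 (ε := 1 / (8 * B)) (by positivity)
  have hzero : ∀ a, ∀ m ≤ 1, Cl 1 δ (c a m) := by
    intro a m hm j hj x
    have h0 : c a m = fun _ => 0 := by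
      funext y
      interval_cases m
      · exact hc0 a y
      · exact hc1 a y
    rw [h0]
    have : iteratedFDeriv ℝ j (fun _ : V n => (0 : ℝ)) x = 0 := by
      have := iteratedFDeriv_fun_zero (𝕜 := ℝ) (E := V n) (F := ℝ) (n := j)
      exact congrFun this x
    rw [this, norm_zero]
    exact hδ.le
  choose u hu huk hud using fun a => hbor (c a) (hc a) (hzero a)
  have hv := fun a => chi_exp hρ (hu a) (hud a)
  have hvs : ∀ a, ContDiff ℝ ∞ (fun x => chi (ρ x) * u a x) := fun a => hchi.mul (hu a)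
  have hya : ∀ a, ContDiff ℝ ∞ (fun y : V n => y a) := fun a => contDiff_apply ℝ ℝ a
  refine ⟨fun x a => chi (ρ x) * u a x, contDiff_pi.2 hvs, ?_, ?_, fun x hx => ?_,
    fun a x hx => ?_, fun a m => ?_⟩
  · refine HasCompactSupport.of_support_subset_isCompact core_cpt ?_
    intro x hx
    by_contra h
    refine hx ?_
    funext a
    show chi (ρ x) * u a x = 0
    rw [hD.off x h, chi_zero (by norm_num), zero_mul]
  · intro l hl x
    refine H72.iter_pi_le (contDiff_pi.2 hvs) l x (by norm_num) fun a => ?_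
    refine (H501B.cl_mul hchi (hu a) hB1 (huk a) l hl x).trans (le_of_eq ?_)
    field_simp
    norm_num
  · funext a
    obtain ⟨h, _, h1⟩ := hv a 1
    show chi (ρ x) * u a x = 0
    rw [h1 x, Finset.sum_range_one, hc0 a x, hx]
    simp
  · obtain ⟨h, hh, h1⟩ := hv a 2
    have e : (fun y : V n => y a + chi (ρ y) * u a y) =
        fun y => y a + ρ y * (ρ y * h y) := by
      funext y
      rw [h1 y, Finset.sum_range_succ, Finset.sum_range_one, hc0 a y, hc1 a y]
      ring
    have e2 : ∀ i, pd i (fun y : V n => y a + chi (ρ y) * u a y) x = dl i a := by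
      intro i
      rw [e, pd_add' (hya a) (hρ.mul (hρ.mul hh)), pd_mul' hρ (hρ.mul hh),
        pd_mul' hρ hh, pd_coord, hx]
      ring
    show gr (sc σ) (fun y : V n => y a + chi (ρ y) * u a y) ρ x = _
    rw [gr_sc, Finset.sum_eq_single a]
    · rw [e2, dl, Matrix.one_apply_eq, one_mul]
    · intro j _ hj
      rw [e2, dl, Matrix.one_apply_ne hj, zero_mul]
    · intro h; exact absurd (Finset.mem_univ _) h
  · obtain ⟨h, hh, h1⟩ := hv a (m + 2)
    obtain ⟨F, hF, hF1⟩ := dr_rest hs hρ hh m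
    obtain ⟨r, hr, E, hEs, hE1⟩ := hE a m
    refine ⟨r, hr, fun x => E x + F x, hEs.add hF, fun x hx => ?_⟩
    have hsum : ContDiff ℝ ∞ (fun y => ∑ i ∈ Finset.range (m + 2), ρ y ^ i * c a i y) :=
      ContDiff.sum fun i _ => (hρ.pow i).mul (hc a i)
    have e : (fun y : V n => y a + chi (ρ y) * u a y) =
        fun y => (y a + ∑ i ∈ Finset.range (m + 2), ρ y ^ i * c a i y) + ρ y ^ (m + 2) * h y := by
      funext y
      rw [h1 y, add_assoc]
    show dr (sc σ) (fun y : V n => y a + chi (ρ y) * u a y) x = _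
    rw [e, dr_add hs ((hya a).add hsum) ((hρ.pow _).mul hh), dr_add hs (hya a) hsum,
      dr_sc_coord, hE1 x hx, hF1 x]
    ring

end Vale.Agent.P088.H833.RC
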