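import Vale.Agent.P088.H72.X.Defs
import Vale.Agent.P088.H833.CgoQ

/-!
# P088, stage B + CF, row X_CGX
-/

namespace Vale.Agent.P088.H833

open Vale.Agent.P088.LR

/-- Row CGX. -/
theorem cgx : BX.RowCGX := fun ν τ hν _ hντ Q hQ R => cgoq ν τ hν hντ Q hQ R

end Vale.Agent.P088.H833
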