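import Vale.Agent.P088.H198.Defs4
import Vale.Agent.P088.H442.CFAsm
import Vale.Agent.P088.H364.BChs

/-!
# P088, row F_RIG: rigidity of `σ · 1` near `1` in the tensor form
-/

open MeasureTheory Set
open scoped ContDiff Matrix

noncomputable section

namespace Vale.Agent.P088.H833

open Vale.Agent.P088.LR Vale.Agent.P088.LR.CF

/-- `σ = 1`, no hypothesis. -/
theorem locS1 : ∀ n : ℕ, 3 ≤ n → ∃ (k : ℕ) (ε : ℝ), 0 < ε ∧ LocS1 n k ε :=
  fun n hn => H364.chs n hn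

/-- General `σ`, from 442's tensor form. -/
theorem locS_of_rig {n k : ℕ} {ε : ℝ} (h : Rig2 n k ε) : LocS n k ε :=
  fun Ω hΩ hreg hΩb σ s hσ hσ1 hs hsy hoff hσc hsc hst =>
    h Ω hΩ hreg hΩb σ s hσ.1 hσ.2 hσ1 hs hsy hoff hσc hsc hst

/-- General `σ`, from the CF rows. -/
theorem locS_of_rows (hA3 : RowA3) (hN1 : RowNORM1) (hG2 : RowG2) (hPHI : RowPHI) (hPU : RowPU2)
    (hABS : RowABS) : ∀ n : ℕ, ∃ (k : ℕ) (ε : ℝ), 0 < ε ∧ LocS n k ε := fun n => by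
  obtain ⟨k, ε, hε, h⟩ := rig2_of_rows442 hA3 hN1 hG2 hPHI hPU hABS n
  exact ⟨k, ε, hε, locS_of_rig h⟩

end Vale.Agent.P088.H833
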